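import Vale.Agent.P153.App2.Stm

/-! P153, module App2: summing over the scales. -/

open Set

namespace Vale.Agent.P153.App2

open App

theorem abs4_term {θ l b : ℝ} (hθ : 0 < θ) (hl : 1 ≤ l) (hb : 0 ≤ b) {S E : Set Cfg}
    {f : Cfg → ℝ} {j : ℕ} (h1 : Pr S E ≤ θ ^ j) (h2 : Ex S (fun H => f H ^ 2) ≤ b * l ^ (j + 1)) :
    Ex S (fun H => E.indicator 1 H * f H) ≤ √b * √l * √(l * θ) ^ j := by
  have hl0 : 0 ≤ l := by linarith
  refine (le_abs_self _).trans ((abs_Ex_ind_le S E f).trans ?_)
  refine (mul_le_mul (Real.sqrt_le_sqrt h1) (Real.sqrt_le_sqrt h2) (Real.sqrt_nonneg _)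
    (Real.sqrt_nonneg _)).trans (le_of_eq ?_)
  have e : √(l * θ) ^ j = √((l * θ) ^ j) := by
    rw [Real.sqrt_eq_rpow, Real.sqrt_eq_rpow, ← Real.rpow_natCast, ← Real.rpow_natCast,
      ← Real.rpow_mul (by positivity), ← Real.rpow_mul (by positivity), mul_comm (j : ℝ)]
  rw [e, ← Real.sqrt_mul (by positivity), ← Real.sqrt_mul hb, ← Real.sqrt_mul (by positivity)]
  congr 1
  ring

theorem s_abs4 : S_abs4 := by
  intro θ l hθ hl hlθ
  have r0 : 0 ≤ √(l * θ) := Real.sqrt_nonneg _
  have r1 : √(l * θ) < 1 := by rw [Real.sqrt_lt' one_pos]; linarith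
  have r2 : 0 < 1 - √(l * θ) := by linarith
  refine ⟨√l / (1 - √(l * θ)), by positivity, fun S X A J b hb h0 hP hE hJ => ?_⟩
  have key : ∀ n j, j + n = J → Ex S (fun H => (A j).indicator 1 H * X H ^ 4) ≤
      √b * √l * √(l * θ) ^ j / (1 - √(l * θ)) := by
    intro n
    induction n with
    | zero =>
      rintro j rfl
      refine (abs4_term hθ hl hb (hP j le_rfl) (by simpa only [← pow_mul] using hJ)).trans ?_
      exact le_div_self (by positivity) r2 (by linarith)
    | succ n ih =>
      intro j hj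
      have k1 := ih (j + 1) (by omega)
      have k2 := abs4_term (f := fun H => (A (j + 1))ᶜ.indicator 1 H * X H ^ 4) hθ hl hb
        (hP j (by omega)) ((le_of_eq (Ex_congr fun H _ => by
          by_cases h : H ∈ (A (j + 1))ᶜ <;> simp [h, ← pow_mul])).trans (hE j (by omega)))
      have k3 : Ex S (fun H => (A j).indicator 1 H * X H ^ 4) ≤
          Ex S (fun H => (A (j + 1)).indicator 1 H * X H ^ 4) +
            Ex S fun H => (A j).indicator 1 H * ((A (j + 1))ᶜ.indicator 1 H * X H ^ 4) := by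
        rw [← Ex_add]
        refine Ex_mono fun H _ => ?_
        have : 0 ≤ X H ^ 4 := by positivity
        by_cases h : H ∈ A j <;> by_cases h' : H ∈ A (j + 1) <;> simp [h, h', this]
      refine k3.trans ((add_le_add k1 k2).trans (le_of_eq ?_))
      field_simp
      ring
  have k := key J 0 (Nat.zero_add J)
  rw [Ex_congr (g := fun H => X H ^ 4) fun H hH => by simp [h0 H hH]] at k
  refine k.trans (le_of_eq ?_)
  ring

end Vale.Agent.P153.App2
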