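import Vale.Agent.P153.App2.Stm

/-! P153, module App2: slow growth of the moments. -/

open Set

namespace Vale.Agent.P153.App2

open App

theorem grow_pow {N : ℕ} (hN : 1 ≤ N) : (2 * (N : ℝ) + 1) ^ 16 ≤ 3 ^ 16 * (N : ℝ) ^ 16 := by
  have h : (1 : ℝ) ≤ N := by exact_mod_cast hN
  rw [← mul_pow]
  exact pow_le_pow_left₀ (by positivity) (by linarith) 16

theorem grow_tot (hl : S_lin) {N : ℕ} {x : V} {ψ : V →₀ ℝ} (hN : 1 ≤ N) (hψ : W1 ψ)
    (hs : Sup ψ (hex x N)) : tot ψ ^ 8 ≤ 3 ^ 16 * (N : ℝ) ^ 16 := by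
  refine (pow_le_pow_left₀ (hl.tot_nonneg ψ fun y => (hψ y).1) (hl.tot_le ψ x N hψ hs) 8).trans ?_
  rw [← pow_mul]
  exact grow_pow hN

theorem s_grow (hl : S_lin) (hh : S_hole) (hn : S_nl) (hp : S_peel) (hm : S_mom) : S_grow := by
  intro δ hδ
  obtain ⟨c, hc, hn⟩ := hn 4
  obtain ⟨D, hD, hp⟩ := hp (δ / 2) c (half_pos hδ) hc
  obtain ⟨A, hA, hm⟩ := hm
  refine ⟨3 ^ 16 * (A + 2 * D / δ), by positivity, fun i N x U ψ hN hψ hs hU => ?_⟩
  replace hU := hU.trans (hex_mono (Nat.mul_le_mul_right N (Nat.pow_le_pow_right two_pos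
    i.le_succ)))
  have h0 : 0 ≤ 2 * D / δ := by positivity
  have h1 : (0 : ℝ) ≤ 3 ^ 16 * (N : ℝ) ^ 16 := by positivity
  induction i generalizing U with
  | zero =>
    refine (hm _ x U ψ hU hψ).trans ?_
    have h2 := mul_le_mul_of_nonneg_left (grow_pow hN) hA
    have h3 := mul_nonneg h0 h1
    push_cast
    norm_num at h2 h3 ⊢
    linarith
  | succ i ih =>
    have hr : N ≤ 2 ^ i * N := Nat.le_mul_of_pos_left N (by positivity)
    have e : 2 ^ (i + 1).succ * N = 4 * (2 ^ i * N) := by rw [Nat.succ_eq_add_one]; ring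
    rw [e] at hU
    refine (hp (fun U => U ⊆ hex x (4 * (2 ^ i * N))) (fun U => Small U (2 ^ i * N)) ψ
      (3 ^ 16 * (A + 2 * D / δ) * (1 + δ) ^ i * (N : ℝ) ^ 16) (fun y => (hψ y).1)
      (by positivity) (fun U hU => (hex_finite _ _).subset hU)
      (fun U hU H _ => (hh.sub U H).trans hU)
      (fun U hU => (hn _ x U (hN.trans hr) hU).trans
        (Pr_mono fun H hH h => hh.small U H _ ((hex_finite _ _).subset hU) hH h))
      (fun U hU hG => ?_) U hU).trans ?_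
    · obtain ⟨G, -, h2, h3⟩ := hl.loc U ψ x N (2 ^ i.succ * N) ((hex_finite _ _).subset hU) hs
        fun a ha hx b hb => by
          have h4 := hG a ha b hb
          have h5 := nrm_tri x a b
          rw [mem_hex] at hx ⊢
          rw [pow_succ, mul_right_comm]
          omega
      exact h3 ▸ ih G h2
    · have h2 := mul_le_mul_of_nonneg_left (grow_tot hl hN hψ hs) hD
      have h3 : 1 ≤ (1 + δ) ^ i := one_le_pow₀ (by linarith)
      have h4 : D ≤ δ / 2 * ((A + 2 * D / δ) * (1 + δ) ^ i) := by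
        refine le_trans (le_of_eq ?_) (mul_le_mul_of_nonneg_left ((le_add_of_nonneg_left hA).trans
          (le_mul_of_one_le_right (by positivity) h3)) (half_pos hδ).le)
        field_simp
      have h5 := mul_le_mul_of_nonneg_right h4 h1
      rw [pow_succ (1 + δ)]
      linarith

theorem s_tw (hl : S_lin) (hh : S_hole) (hw : S_naw) (hp : S_peel) (hg : S_grow) : S_tw := by
  intro δ hδ
  obtain ⟨C₁, hC₁, hw⟩ := hw
  obtain ⟨D, hD, hp⟩ := hp 1 (1 / 2) one_pos one_half_pos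
  obtain ⟨C, hC, hg⟩ := hg δ hδ
  refine ⟨2 * C * (1 + δ) ^ C₁ + D * 3 ^ 16, by positivity, fun i N x U ψ hN hψ hs hU hx => ?_⟩
  have hr : N ≤ 2 ^ i * N := Nat.le_mul_of_pos_left N (by positivity)
  refine (hp (fun U => Dm U ∧ ¬ hex x (2 ^ i * N) ⊆ U)
    (fun U => Inside U x (2 ^ i * N) (C₁ * (2 ^ i * N))) ψ
    (C * (1 + δ) ^ (C₁ + i) * (N : ℝ) ^ 16) (fun y => (hψ y).1) (by positivity)
    (fun U hU => hU.1.1) (fun U hU H _ => ⟨hh.dm U H hU.1, fun h => hU.2 (h.trans (hh.sub U H))⟩)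
    (fun U hU => (hw U x _ (hN.trans hr) hU.1 hU.2).trans (Pr_mono fun H hH h =>
      hh.inside U H x _ _ hU.1 hH hU.2 (Nat.le_mul_of_pos_left _ hC₁) h))
    (fun U hU hG => ?_) U ⟨hU, hx⟩).trans ?_
  · obtain ⟨G, -, h2, h3⟩ := hl.loc U ψ x _ _ hU.1.1 (fun y hy => hex_mono hr (hs y hy)) hG
    refine h3 ▸ hg _ N x G ψ hN hψ hs (h2.trans (hex_mono ?_))
    rw [pow_add, mul_assoc]
    exact Nat.mul_le_mul_right _ Nat.lt_two_pow_self.le
  · have h2 := mul_le_mul_of_nonneg_left (grow_tot hl hN hψ hs) hD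
    have h3 : 1 ≤ (1 + δ) ^ i := one_le_pow₀ (by linarith)
    have h4 := le_mul_of_one_le_right (show 0 ≤ D * (3 ^ 16 * (N : ℝ) ^ 16) by positivity) h3
    rw [pow_add]
    linarith

end Vale.Agent.P153.App2
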