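import Vale.Agent.P153.App2.Stm
import Vale.Agent.P153.App.Det

/-! P153, module App2: the holes left by the exploration of the low sites. -/

open Set

namespace Vale.Agent.P153.App2

open App

theorem hole_two {U : Set V} {H : Cfg} (hH : H ∈ flat U 0) {a y : V}
    (hy : y ∈ obd (comp (unx U H) a)) : H y = 2 :=
  obd_low (B := U) (k := 1) hH.1 (fun x hx => by rw [hH.2 x hx.1]; omega) y (obd_comp hy)

theorem hole_both {U : Set V} {H : Cfg} (hH : H ∈ flat U 0) {a p q : V}
    (h : Conn (fun _ _ => True) (obd (comp (unx U H) a)) p q) : Conn (both (ge 2 H)) univ p q :=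
  h.mono' fun _ _ _ _ h1 h2 => ⟨⟨(hole_two hH h1).ge, (hole_two hH h2).ge⟩, trivial, trivial⟩

theorem s_hole : S_hole where
  sub U H := compl_Rch_subset U _ H
  dm U H h := ⟨h.1.subset (compl_Rch_subset U _ H), by
    rw [unx, compl_compl]; exact cnn_Rch h.2⟩
  small U H r hU hH h a ha b hab := by
    by_contra k
    obtain ⟨p, -, q, k1, k2⟩ := obd_ext (cn_comp (unx U H) a)
      (hU.subset (comp_subset.trans (compl_Rch_subset U _ H))) (self_mem_comp ha) ⟨ha, hab⟩
    exact h ⟨p, q, (not_lt.1 k).trans k1, hole_both hH k2⟩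
  inside U H x n N hU hH hw hn h a ha hax b hab := by
    by_contra k
    have hf : (comp (unx U H) a).Finite :=
      hU.1.subset (comp_subset.trans (compl_Rch_subset U _ H))
    obtain ⟨y, hy, hyU⟩ := not_subset.1 hw
    have hc : Cn (comp (unx U H) a)ᶜ :=
      cn_compl_comp (K := Rch Uᶜ (fun s _ => s ≤ 1) H) (cnn_Rch hU.2) ⟨y, subset_Rch _ _ _ hyU⟩ a
    obtain ⟨u, v, -, k1, -, -, k2, k3, k4, -⟩ := (cn_hex x n a hax y hy).exit
      (B := comp (unx U H) a) (self_mem_comp ha) fun e => hyU (compl_Rch_subset U _ H (comp_subset e))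
    obtain ⟨c, hc1, hc2⟩ := exists_max_image _ (fun z => nrm (z - x)) hf ⟨a, self_mem_comp ha⟩
    obtain ⟨d, k5, k6⟩ := exists_farther x c
    have k7 := hc2 b ⟨ha, hab⟩
    have k8 : d ∈ obd (comp (unx U H) a) :=
      ⟨fun e => by have := hc2 d e; omega, c, hc1, k5.symm⟩
    refine h ((hole_both hH (cn_obd (cn_comp _ a) hc v ⟨k4, u, k2, k1.symm⟩ d k8)).arm k3 hn ?_)
    rw [mem_hex] at k
    omega

end Vale.Agent.P153.App2
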