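import Vale.Agent.P153.App2.Stm

/-! P153, module App2: long paths of large height. -/

open Set

namespace Vale.Agent.P153.App2

open App

theorem k3_mono {A B : Set V} {r : ℕ} (h : A ⊆ B) (hl : Lng (both A) r) : Lng (both B) r := by
  obtain ⟨a, b, h1, h2⟩ := hl
  exact ⟨a, b, h1, h2.mono (both_mono h) subset_rfl⟩

theorem k3_inc (k : ℤ) (r : ℕ) : IncBy id {H | Lng (both (ge k H)) r} :=
  fun H K _ _ hHK h => k3_mono (fun y (hy : k ≤ H y) => (le_trans hy (hHK y) : k ≤ K y)) h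

theorem k3_dec (k : ℤ) (r : ℕ) : DecBy id {H | Lng (both (le k H)) r} :=
  fun H K _ _ hHK h => k3_mono (fun y (hy : K y ≤ k) => (le_trans (hHK y) hy : H y ≤ k)) h

theorem s_nl (h : GStar) : S_nl := by
  intro L
  obtain ⟨c, hc, h⟩ := h L
  refine ⟨c, hc, fun r x U hr hU => ?_⟩
  have hf : U.Finite := (hex_finite x _).subset hU
  refine (h r x U 0 hr hU).trans (le_trans ?_ ((sd_flat_free hf 0).1.dec (k3_inc 2 r).compl))
  refine Pr_mono fun H _ h1 h2 => h1 ?_
  obtain ⟨a, b, h3, h4⟩ := h2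
  refine ⟨a, b, h3, h4.mono (fun u v huv => Or.inl ?_) subset_rfl⟩
  have h5 : 2 ≤ H u := huv.1
  show 3 ≤ |2 * (H u - 0) - 1|
  exact le_trans (by omega) (le_abs_self _)

theorem k3_start {A : Set V} {a b : V} {r : ℕ} (hr : 1 ≤ r) (h1 : r ≤ nrm (b - a))
    (h : Conn (both A) univ a b) : a ∈ A ∧ Conn (fun _ _ => True) A a b := by
  have h2 := conn_both_iff.1 h
  rw [univ_inter] at h2
  refine ⟨?_, h2⟩
  rcases h2.eq_or_mem with rfl | h3
  · rw [sub_self, nrm_eq_zero.2 rfl] at h1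
    omega
  · exact h3.1

theorem k3_low {U : Set V} {H : Cfg} (hH : H ∈ flat U 0) {y : V}
    (hy : y ∈ Rch Uᶜ (fun s _ => s ≤ 1) H) : H y ≤ 2 := by
  rcases Rch_cases hy with h | ⟨a, -, h1, h2⟩
  · rw [hH.2 y h]; omega
  · have := abs_le.1 (hH.1 a y h1)
    omega

theorem s_k3 (hh : S_hole) (hn : S_nl) : S_k3 := by
  intro L η hη
  obtain ⟨c, hc, hn⟩ := hn L
  have hc1 : c ≤ 1 := (hn 1 0 ∅ le_rfl (empty_subset _)).trans (Pr_le_one _ _)
  have key : ∀ (m r : ℕ) (x : V) (U : Set V), 1 ≤ r → U ⊆ hex x (L * r) →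
      Pr (flat U 0) {H | Lng (both (ge (2 * m + 2) H)) r} ≤ (1 - c) ^ m := by
    intro m
    induction m with
    | zero => intro r x U _ _; rw [pow_zero]; exact Pr_le_one _ _
    | succ m ih =>
      intro r x U hr hU
      have hf : U.Finite := (hex_finite x _).subset hU
      have hg := good_flat hf 0
      have h1 : Pr (flat U 0) {H | ¬ Small (unx U H) r} ≤ 1 - c := by
        have h2 := Pr_compl hg {H | ¬ Lng (both (ge 2 H)) r}
        have h3 := hn r x U hr hU
        have h4 : Pr (flat U 0) {H | ¬ Small (unx U H) r} ≤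
            Pr (flat U 0) {H | ¬ Lng (both (ge 2 H)) r}ᶜ :=
          Pr_mono fun H hH h5 h6 => h5 (hh.small U H r hf hH h6)
        linarith
      have h2 := explore_le (S := flat U 0) (E := {H | ¬ Small (unx U H) r})
        (E' := {H | Lng (both (ge (2 * (m + 1 : ℕ) + 2) H)) r}) (c := (1 - c) ^ m) Uᶜ
        (fun s _ => s ≤ 1) (fun H _ K _ h3 _ h4 => by
          show ¬ Small (unx U K) r
          rw [unx, h3]
          exact h4) (fun H hH _ => by
          rw [Pr, cell_flat (fun s => s ≤ 1) (k := 1 + 1)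
            (f' := {H | Lng (both (ge (2 * (m + 1 : ℕ) + 2) H)) r}.indicator 1) hg.1 hf
            (freeIn_flat U 0) hH (obd_low hH.1 fun y hy => by rw [hH.2 y hy.1]; omega)]
          · rw [show (1 + 1 : ℤ) = 0 + 2 by norm_num, ← Ex_flat_shift]
            refine le_trans (Ex_mono fun K _ => ind_mono fun h3 => ?_)
              (ih r x (unx U H) hr ((hh.sub U H).trans hU))
            refine k3_mono (fun y (hy : _ ≤ K y + 2) => ?_) h3
            show _ ≤ K y
            push_cast at hy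
            omega
          · intro K hK K' hK' h3
            have h4 : ge (2 * (m + 1 : ℕ) + 2) K = ge (2 * (m + 1 : ℕ) + 2) K' := by
              ext y
              show _ ≤ K y ↔ _ ≤ K' y
              by_cases hy : y ∈ Rch Uᶜ (fun s _ => s ≤ 1) H
              · have h5 := k3_low hH hy
                rw [hK.2.1 y hy, hK'.2 y (not_not.2 hy)]
                push_cast
                omega
              · rw [h3 y hy]
            refine le_antisymm (ind_mono fun h5 => ?_) (ind_mono fun h5 => ?_)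
            · show Lng _ r
              rw [← h4]; exact h5
            · show Lng _ r
              rw [h4]; exact h5)
      refine le_trans (Pr_mono fun H hH h3 => ?_) (h2.trans ?_)
      · refine ⟨fun h4 => ?_, h3⟩
        obtain ⟨a, b, h5, h6⟩ := h3
        obtain ⟨h7, h8⟩ := k3_start hr h5 h6
        have h9 : ge (2 * (m + 1 : ℕ) + 2) H ⊆ unx U H := fun y (hy : _ ≤ H y) hy' => by
          have := k3_low hH hy'
          push_cast at hy
          omega
        exact absurd (h4 a (h9 h7) b (h8.monoA h9)) (not_lt.2 h5)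
      · rw [pow_succ]
        exact mul_le_mul_of_nonneg_left h1 (pow_nonneg (by linarith) _)
  obtain ⟨m, hm⟩ := exists_pow_lt_of_lt_one hη (show 1 - c < 1 by linarith)
  refine ⟨2 * m + 2, fun r x U hr hU => ?_⟩
  have := (key m r x U hr hU).trans hm.le
  push_cast
  exact this

theorem k3_split {H : Cfg} (hH : Lip H) {M r : ℕ} (hr : 1 ≤ r)
    (h : Lng (both (Seal.big 0 M H)) r) :
    Lng (both (ge (M + 2) H)) r ∨ Lng (both (le (-M - 1) H)) r := by
  obtain ⟨a, b, h1, h2⟩ := h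
  obtain ⟨h3, -⟩ := k3_start hr h1 h2
  rcases h3 with h3 | h3
  · refine Or.inr ⟨a, b, h1, ?_⟩
    have h4 : a ∈ le (-M - 1) H := by
      show H a ≤ _
      simp only [Pi.zero_apply] at h3
      omega
    refine (h2.ind (P := fun v => v ∈ le (-M - 1) H ∧ Conn (both (le (-M - 1) H)) univ a v)
      ⟨h4, Conn.rfl⟩ fun u v _ h5 h6 _ _ h7 => ?_).2
    have h8 : v ∈ le (-M - 1) H := by
      have h9 : H u ≤ -M - 1 := h7.1
      have := abs_le.1 (hH u v h5)
      have h10 : H v < 0 - M ∨ 0 + 1 + M < H v := h6.2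
      show H v ≤ _
      omega
    exact ⟨h8, h7.2.tail h5 ⟨h7.1, h8⟩ trivial trivial⟩
  · refine Or.inl ⟨a, b, h1, ?_⟩
    have h4 : a ∈ ge (M + 2) H := by
      show _ ≤ H a
      simp only [Pi.zero_apply] at h3
      omega
    refine (h2.ind (P := fun v => v ∈ ge (M + 2) H ∧ Conn (both (ge (M + 2) H)) univ a v)
      ⟨h4, Conn.rfl⟩ fun u v _ h5 h6 _ _ h7 => ?_).2
    have h8 : v ∈ ge (M + 2) H := by
      have h9 : M + 2 ≤ H u := h7.1
      have := abs_le.1 (hH u v h5)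
      have h10 : H v < 0 - M ∨ 0 + 1 + M < H v := h6.2
      show _ ≤ H v
      omega
    exact ⟨h8, h7.2.tail h5 ⟨h7.1, h8⟩ trivial trivial⟩

theorem s_k3s (h : S_k3) : S_k3s := by
  intro L η hη
  obtain ⟨M, h⟩ := h L (η / 2) (half_pos hη)
  refine ⟨M, fun r x U S hr hU hS => ?_⟩
  have h0 := h r x U hr hU
  have h1 : Pr S {H | Lng (both (ge (M + 2) H)) r} ≤ η / 2 := by
    refine (hS.2.2.2.inc (k3_inc _ r)).trans ?_
    rw [Pr, show (1 : ℤ) = 0 + 1 by norm_num, ← Ex_flat_shift]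
    refine le_trans (Ex_mono fun K _ => ind_mono fun h3 => ?_) h0
    refine k3_mono (fun y (hy : _ ≤ K y + 1) => ?_) h3
    show _ ≤ K y
    omega
  have h2 : Pr S {H | Lng (both (le (-M - 1) H)) r} ≤ η / 2 := by
    refine (hS.2.2.1.dec (k3_dec _ r)).trans ?_
    rw [Pr, show (0 : ℤ) = 0 - 0 by norm_num, ← Ex_flat_flip]
    refine le_trans (Ex_mono fun K _ => ind_mono fun h3 => ?_) h0
    refine k3_mono (fun y (hy : 0 - K y ≤ _) => ?_) h3
    show _ ≤ K y
    omega
  have h3 := Pr_union_le S {H | Lng (both (ge (M + 2) H)) r} {H | Lng (both (le (-M - 1) H)) r}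
  have h4 : Pr S {H | Lng (both (Seal.big 0 M H)) r} ≤
      Pr S ({H | Lng (both (ge (M + 2) H)) r} ∪ {H | Lng (both (le (-M - 1) H)) r}) :=
    Pr_mono fun H hH h5 => k3_split (hS.2.1 H hH) hr h5
  linarith

theorem levDob (hs : S_sw) (h : S_k3s) : Seal.LevDob := by
  intro η hη L
  obtain ⟨M, h⟩ := h L η hη
  exact ⟨M, fun r hr F S hF => h r 0 F _ hr hF (hs.dob F S ((hex_finite _ _).subset hF))⟩

theorem levMu (hs : S_sw) (hc : S_scr) (hb : S_bk) (h : S_k3s) : Seal.LevMu := by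
  intro η hη L
  obtain ⟨M0, hM0, he⟩ := hb.eps (η / 2) (half_pos hη)
  obtain ⟨M, h⟩ := h (M0 * (L + 1)) (η / 2) (half_pos hη)
  refine ⟨M, fun r hr x => ?_⟩
  filter_upwards [Filter.eventually_ge_atTop (nrm (x - 0) + (M0 * ((L + 1) * r) + 1))] with N hN
  have hB : Bk (free (hex 0 N) 0) (hex 0 N) 2 := ⟨⟨hex_finite _ _, cnn_hex_compl 0 N⟩, Or.inl ⟨rfl, rfl⟩⟩
  have h1 : hex x (M0 * ((L + 1) * r) + 1) ⊆ hex 0 N := hex_subset hN
  have hr1 : 1 ≤ (L + 1) * r := Nat.mul_pos (Nat.succ_pos L) hr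
  have h2 := he _ _ _ x ((L + 1) * r) (M0 * ((L + 1) * r)) hB ((hex_mono (Nat.le_succ _)).trans h1)
    hr1 le_rfl
  set E : Set Cfg := {H | ∀ k : ℤ, Seal.Long (both (Seal.big (fun _ => 4 * k) M H))
    (hex x (L * r)) r} with hE
  have h4 : ∀ H H' : Cfg, (∀ y ∈ hex x ((L + 1) * r), H y = H' y) → H ∈ E → H' ∈ E := by
    intro H H' h5 h6 k
    obtain ⟨a, b, h7, h8⟩ := h6 k
    have h9 : hex x (L * r) ⊆ hex x ((L + 1) * r) :=
      hex_mono (Nat.mul_le_mul_right r (Nat.le_succ L))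
    refine ⟨a, b, h7, h8.mono' fun u v _ h10 hu hv => ⟨⟨?_, ?_⟩, hu, hv⟩⟩
    · show H' u < _ ∨ _ < H' u
      rw [← h5 u (h9 hu)]; exact h10.1
    · show H' v < _ ∨ _ < H' v
      rw [← h5 v (h9 hv)]; exact h10.2
  have h3 := hc.le _ 2 x ((L + 1) * r) (M0 * ((L + 1) * r)) (E.indicator 1) (η / 2)
    (hb.good _ _ _ hB) (hb.free _ _ _ x _ hB h1) (Nat.le_mul_of_pos_left _ hM0)
    (fun H H' h5 => le_antisymm (ind_mono (h4 H H' h5))
      (ind_mono (h4 H' H fun y hy => (h5 y hy).symm))) (ind_nonneg E) (half_pos hη).le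
    (fun W k hW => by
      obtain ⟨k0, rfl⟩ : ∃ k0, k = 0 + 4 * k0 := ⟨k / 4, by have := hW.2.2.2; omega⟩
      rw [← Ex_free_shift]
      refine le_trans (Ex_mono fun K _ => ind_mono fun h5 => ?_)
        (h r x W _ hr (by rw [mul_assoc]; exact hW.2.2.1) (hs.free W hW.1.1))
      obtain ⟨a, b, h7, h8⟩ := h5 k0
      refine ⟨a, b, h7, h8.mono (both_mono fun y hy => ?_) (subset_univ _)⟩
      have h9 : K y + 4 * k0 < 4 * k0 - M ∨ 4 * k0 + 1 + M < K y + 4 * k0 := hy
      show K y < 0 - M ∨ 0 + 1 + M < K y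
      omega)
  have h5 : Pr (free (hex 0 N) 0) E ≤ Ex (free (hex 0 N) 0) fun H =>
      (ArmS 2 x ((L + 1) * r) (M0 * ((L + 1) * r))).indicator 1 H +
        (ArmS 2 x ((L + 1) * r) (M0 * ((L + 1) * r)))ᶜ.indicator 1 H * E.indicator 1 H := by
    refine Ex_mono fun H _ => ?_
    rw [ind_compl]
    have h6 := ind_le_one E H
    have h7 := ind_nonneg (ArmS 2 x ((L + 1) * r) (M0 * ((L + 1) * r))) H
    nlinarith
  rw [Ex_add] at h5
  show Pr (free (hex 0 N) 0) E ≤ η
  have h6 : Ex (free (hex 0 N) 0) (fun H =>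
    (ArmS 2 x ((L + 1) * r) (M0 * ((L + 1) * r))).indicator 1 H) ≤ η / 2 := h2
  linarith

end Vale.Agent.P153.App2
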