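import Vale.Agent.P153.App2.Stm

/-! P153, module App2: the Khintchine inequality for non adjacent groups. -/

open Set

namespace Vale.Agent.P153.App2

open App

/-- The eighth moment of a Gaussian variable with mean `x` and variance `v`. -/
def khin_P (x v : ℝ) : ℝ :=
  x ^ 8 + 28 * x ^ 6 * v + 210 * x ^ 4 * v ^ 2 + 420 * x ^ 2 * v ^ 3 + 105 * v ^ 4

theorem khin_ineq (x y : ℝ) {v : ℝ} (hv : 0 ≤ v) :
    khin_P (y + x) v + khin_P (-y + x) v ≤ 2 * khin_P x (v + y ^ 2) := by
  have h : 0 ≤ 2 * y ^ 4 * (70 * x ^ 4 + 420 * x ^ 2 * v + 210 * v ^ 2) +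
      14 * y ^ 6 * (28 * x ^ 2 + 28 * v) + 104 * y ^ 8 := by positivity
  have e : 2 * khin_P x (v + y ^ 2) = khin_P (y + x) v + khin_P (-y + x) v +
      2 * (2 * y ^ 4 * (70 * x ^ 4 + 420 * x ^ 2 * v + 210 * v ^ 2) +
      14 * y ^ 6 * (28 * x ^ 2 + 28 * v) + 104 * y ^ 8) := by
    unfold khin_P
    ring
  linarith

theorem khin_abs {S : Set Cfg} {Z : V → Cfg → ℝ} {φ : V → Cfg → Cfg}
    (hb : ∀ i, BijOn (φ i) S S) (h1 : ∀ i H, Z i (φ i H) = -Z i H)
    (h2 : ∀ i j H, j ≠ i → Z j (φ i H) = Z j H) (t : Finset V) :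
    ∀ W : Cfg → ℝ, (∀ H, 0 ≤ W H) → (∀ i ∈ t, ∀ H, W (φ i H) = W H) →
      Ex S (fun H => khin_P (∑ i ∈ t, Z i H) (W H)) ≤
        Ex S fun H => khin_P 0 (W H + ∑ i ∈ t, Z i H ^ 2) := by
  induction t using Finset.induction_on with
  | empty => intro W _ _; simp
  | insert a t ha ih =>
    intro W W0 hW
    simp only [Finset.sum_insert ha]
    have e := Ex_bij (hb a) fun H => khin_P (Z a H + ∑ i ∈ t, Z i H) (W H)
    have e' : Ex S (fun H => khin_P (-Z a H + ∑ i ∈ t, Z i H) (W H)) =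
        Ex S fun H => khin_P (Z a H + ∑ i ∈ t, Z i H) (W H) := by
      refine (Ex_congr fun H _ => ?_).trans e
      rw [h1, hW a (Finset.mem_insert_self _ _),
        Finset.sum_congr rfl fun i hi => h2 a i H (ne_of_mem_of_not_mem hi ha)]
    have l := Ex_mono (S := S) fun H _ => khin_ineq (∑ i ∈ t, Z i H) (Z a H) (W0 H)
    rw [Ex_add, Ex_mul_left, e'] at l
    have i := ih (fun H => W H + Z a H ^ 2) (fun H => add_nonneg (W0 H) (sq_nonneg _))
      fun i hi H => by
        rw [hW i (Finset.mem_insert_of_mem hi), h2 i a H (ne_of_mem_of_not_mem hi ha).symm]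
    simp only [add_assoc] at i
    linarith

theorem s_khin (hl : S_lin) : S_khin := by
  classical
  intro U s z ψ hU hz hA
  set G : V → Set V := fun i => {y | y ∈ U ∧ z y = i} with hG
  set Z : V → Cfg → ℝ := fun i H => lin ψ (pw (G i) H fun _ => 0) with hZ
  set φ : V → Cfg → Cfg := fun i H => pw (G i) (fun x => -H x) H with hφ
  have hs : ∀ H, lin ψ H = ∑ y ∈ ψ.support, ψ y * H y := fun H =>
    hl.eq ψ _ H fun y hy => Finsupp.mem_support_iff.2 hy
  have out : ∀ i, ∀ a ∈ G i, ∀ b, b ∉ G i → Adj a b → b ∉ U := fun i a ha b hb h hb' =>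
    hb ⟨hb', (hA a ha.1 b hb' h).symm.trans ha.2⟩
  have mp : ∀ i, MapsTo (φ i) (flat U 0) (flat U 0) := fun i H hH => by
    refine ⟨Lip.pw (fun x y h => ?_) hH.1 fun a ha b hb h => ?_, fun x hx => ?_⟩
    · have := abs_le.1 (hH.1 x y h)
      exact abs_le.2 ⟨by omega, by omega⟩
    · have := abs_le.1 (hH.1 a b h)
      have := hH.2 b (out i a ha b hb h)
      exact abs_le.2 ⟨by omega, by omega⟩
    · exact (pw_out _ _ fun h => hx h.1).trans (hH.2 x hx)
  have iv : ∀ i H, φ i (φ i H) = H := fun i H => funext fun x => by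
    by_cases hx : x ∈ G i
    · simp only [hφ, pw_in _ _ hx, neg_neg]
    · simp only [hφ, pw_out _ _ hx]
  have k := khin_abs (S := flat U 0) (Z := Z) (φ := φ)
    (fun i => InvOn.bijOn ⟨fun H _ => iv i H, fun H _ => iv i H⟩ (mp i) (mp i))
    (fun i H => by
      simp only [hZ, hs, ← Finset.sum_neg_distrib]
      refine Finset.sum_congr rfl fun x _ => ?_
      by_cases hx : x ∈ G i
      · simp [hφ, pw_in _ _ hx]
      · simp [pw_out _ _ hx])
    (fun i j H hij => by
      simp only [hZ, hs]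
      refine Finset.sum_congr rfl fun x _ => ?_
      by_cases hx : x ∈ G j
      · have : x ∉ G i := fun h => hij (hx.2.symm.trans h.2)
        simp only [hφ, pw_in _ _ hx, pw_out _ _ this]
      · simp only [pw_out _ _ hx]) s (fun _ => 0) (fun _ => le_rfl) fun _ _ _ => rfl
  have e1 : ∀ H ∈ flat U 0, lin ψ H ^ 8 = khin_P (∑ i ∈ s, Z i H) 0 := fun H hH => by
    have : ∑ i ∈ s, Z i H = lin ψ H := by
      simp only [hZ, hs]
      rw [Finset.sum_comm]
      refine Finset.sum_congr rfl fun x _ => ?_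
      rw [← Finset.mul_sum]
      congr 1
      by_cases hx : x ∈ U
      · have hx' : x ∈ G (z x) := ⟨hx, rfl⟩
        rw [Finset.sum_eq_single_of_mem (z x) (hz x hx) fun i _ hi => ?_, pw_in _ _ hx']
        rw [pw_out _ _ fun h => hi h.2.symm, Int.cast_zero]
      · rw [hH.2 x hx, Int.cast_zero]
        exact Finset.sum_eq_zero fun i _ => by rw [pw_out _ _ fun h => hx h.1, Int.cast_zero]
    simp [this, khin_P]
  have e2 : ∀ i, Ex (flat U 0) (fun H => Z i H ^ 8) =
      Ex (flat (G i) 0) fun H => lin ψ H ^ 8 := fun i => by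
    refine Ex_eq_flat (good_flat hU 0) (hU.subset fun _ h => h.1)
      ((freeIn_flat U 0).mono fun _ h => h.1) (fun H hH x hx => ?_) fun H _ K hK h => ?_
    · obtain ⟨h1, y, hy, h2⟩ := hx
      exact hH.2 x (out i y hy x h1 h2.symm)
    · have : (pw (G i) H fun _ => 0) = K := funext fun x => by
        by_cases hx : x ∈ G i
        · rw [pw_in _ _ hx, h x hx]
        · rw [pw_out _ _ hx, hK.2 x hx]
      simp only [hZ, this]
  rw [Ex_congr e1, ← Finset.sum_congr rfl fun i _ => e2 i, ← Ex_sum, ← Ex_mul_left]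
  refine k.trans (Ex_mono fun H _ => ?_)
  have := pow_sum_le_card_mul_sum_pow (s := s) (f := fun i => Z i H ^ 2)
    (fun i _ => sq_nonneg _) 3
  simp only [← pow_mul] at this
  simp only [khin_P, zero_add]
  norm_num at this ⊢
  linarith

end Vale.Agent.P153.App2
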