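import Vale.Agent.P153.App2.Stm

/-! P153, module App2: fourth moments. -/

open Set

namespace Vale.Agent.P153.App2

open App

theorem m0_pt (x : V) (n : ℕ) : nrm (((x.1 + n, x.2) : V) - x) = n := by
  rw [nrm_sub]
  simp

theorem m0_not {x : V} {n N : ℕ} {W : Set V} (h : W ⊆ hex x n) (hn : n < N) :
    ¬ hex x N ⊆ W := fun h' => by
  have := h (h' (show ((x.1 + N, x.2) : V) ∈ hex x N from (m0_pt x N).le))
  rw [mem_hex, m0_pt] at this
  omega

theorem m0_pow (C j : ℕ) {N : ℕ} (hN : 1 ≤ N) : C ^ j * N + 1 ≤ 2 ^ (C * j + 1) * N := by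
  have h1 : C ^ j ≤ 2 ^ (C * j) := by
    rw [pow_mul]
    exact Nat.pow_le_pow_left Nat.lt_two_pow_self.le j
  have h2 : 1 ≤ 2 ^ (C * j) := Nat.one_le_two_pow
  rw [pow_succ]
  nlinarith

theorem s_m0g (hl : S_lin) (hs : S_sw) (ha : S_abs4) (hc : S_scr) (hb : S_bk) : S_m0g := by
  obtain ⟨C, θ, C2, θ0, θ1, geo⟩ := hb.geo
  obtain ⟨δ, d1, d2, d0⟩ : ∃ δ : ℝ, (1 + δ) ^ C * θ < 1 ∧ δ ≤ 1 ∧ 0 < δ := by
    have h1 : ContinuousAt (fun d : ℝ => (1 + d) ^ C * θ) 0 := by fun_prop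
    have h2 : ∀ᶠ d in nhds (0 : ℝ), (1 + d) ^ C * θ < 1 :=
      h1.eventually_lt continuousAt_const (by simpa using θ1)
    have h3 : ∀ᶠ d in nhds (0 : ℝ), d ≤ 1 := eventually_le_nhds one_pos
    obtain ⟨d, hd, hd'⟩ := (((h2.and h3).filter_mono nhdsWithin_le_nhds).and
      (self_mem_nhdsWithin (a := (0 : ℝ)) (s := Ioi 0))).exists
    exact ⟨d, hd.1, hd.2, hd'⟩
  obtain ⟨K, K0, hK⟩ := ha θ _ θ0 (one_le_pow₀ (by linarith)) d1
  refine ⟨δ, K * √2, d0, d2, by positivity, fun S U j x N X b hB hN b0 hd hv hyp => ?_⟩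
  have key : ∀ (i : ℕ) (S' : Set Cfg) (W : Set V), Dm W → Sw S' W →
      ¬ hex x (C ^ i * N + 1) ⊆ W → Ex S' (fun H => X H ^ 8) ≤ 2 * b * ((1 + δ) ^ C) ^ i := by
    intro i S' W h1 h2 h3
    refine (hyp (C * i + 1) S' W h1 h2 fun h => h3 ((hex_mono (m0_pow C i hN)).trans h)).trans ?_
    rw [pow_succ, pow_mul]
    have : 0 ≤ b * ((1 + δ) ^ C) ^ i := by positivity
    nlinarith
  have ex : ∃ J, ¬ hex x (C ^ (J + 1) * N + 1) ⊆ U := by
    obtain ⟨n, hn⟩ := exists_hex_of_finite hB.1.1 x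
    refine ⟨n, m0_not hn ?_⟩
    have h1 : n + 1 < 2 ^ (n + 1) := Nat.lt_two_pow_self
    have h2 : 2 ^ (n + 1) ≤ C ^ (n + 1) := Nat.pow_le_pow_left C2 _
    nlinarith
  classical
  have sub : ∀ i < Nat.find ex, hex x (C ^ (i + 1) * N + 1) ⊆ U := fun i hi =>
    not_not.1 (Nat.find_min ex hi)
  have h := hK S X (fun i => ArmS j x N (C ^ i * N)) (Nat.find ex) (2 * b) (by positivity)
    (fun H _ => ⟨(x.1 + N, x.2), (x.1 + N, x.2), m0_pt x N, by rw [m0_pt]; simp, Conn.rfl⟩)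
    (fun i hi => ?_) (fun i hi => ?_) (key _ S U hB.1 (hb.sw S U j hB) (Nat.find_spec ex))
  · refine h.trans_eq ?_
    rw [Real.sqrt_mul two_pos.le, mul_assoc]
  · rcases i with _ | i
    · simpa using Pr_le_one _ _
    · exact geo S U j x (i + 1) N _ hB ((hex_mono (Nat.le_succ _)).trans (sub i hi)) hN le_rfl
  · refine hc.le S j x N _ (fun H => X H ^ 8) _ (hb.good S U j hB) (hb.free S U j x _ hB (sub i hi))
      (Nat.le_mul_of_pos_left _ (by positivity)) (fun H H' h => congrArg (· ^ 8) (hd H H' h))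
      (fun H => by positivity) (by positivity) fun W k hW => ?_
    have e := Ex_free_shift W 0 k fun H => X H ^ 8
    simp only [hv _ k, zero_add] at e
    rw [← e]
    exact key _ _ W hW.1 (hs.free W hW.1.1) (m0_not hW.2.2.1 (Nat.lt_succ_self _))

theorem s_m0 (hl : S_lin) (hs : S_sw) (ht : S_tw) (hg : S_m0g) : S_m0 := by
  obtain ⟨δ, K, d0, d1, K0, hK⟩ := hg
  obtain ⟨C, C0, hC⟩ := ht δ d0
  refine ⟨K * √(2 ^ 20 * (C + 3 ^ 16)), by positivity, fun S U j x N a hB hN a1 a2 a3 => ?_⟩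
  have N1 : (1 : ℝ) ≤ N := by exact_mod_cast hN
  have h := hK S U j x N (lin a) (2 ^ 20 * (C + 3 ^ 16) * ((N : ℝ) ^ 8) ^ 2) hB hN (by positivity)
    (hl.dep a _ a2) (fun H k => by rw [hl.shift, a3, mul_zero, add_zero]) fun i S' W h1 h2 h3 => ?_
  · refine h.trans_eq ?_
    rw [Real.sqrt_mul (by positivity), Real.sqrt_sq (by positivity), mul_assoc]
  · refine (hs.mom S' W (hex x N) a (C * (1 + δ) ^ i * (N : ℝ) ^ 16) ((3 * N) ^ 2) h1.1 h2
      (by positivity) (by positivity) a1 a2 fun ψ p1 p2 => ⟨hC i N x W ψ hN p1 p2 h1 h3,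
        (hl.tot_le ψ x N p1 p2).trans (pow_le_pow_left₀ (by positivity) (by linarith) 2)⟩).trans ?_
    have e1 : (1 : ℝ) ≤ (1 + δ) ^ i := one_le_pow₀ (by linarith)
    have e2 : (3 : ℝ) ^ 16 * (N : ℝ) ^ 16 * 1 ≤ 3 ^ 16 * (N : ℝ) ^ 16 * (1 + δ) ^ i :=
      mul_le_mul_of_nonneg_left e1 (by positivity)
    have e3 : ((3 * (N : ℝ)) ^ 2) ^ 8 = 3 ^ 16 * (N : ℝ) ^ 16 * 1 := by ring
    have e4 : 2 ^ 20 * (C + 3 ^ 16) * ((N : ℝ) ^ 8) ^ 2 * (1 + δ) ^ i = 2 ^ 20 *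
        (C * (1 + δ) ^ i * (N : ℝ) ^ 16 + 3 ^ 16 * (N : ℝ) ^ 16 * (1 + δ) ^ i) := by ring
    rw [e3, e4]
    exact mul_le_mul_of_nonneg_left (by linarith) (by positivity)

theorem s_pt (hl : S_lin) (hs : S_sw) (ht : S_tw) (hg : S_m0g) : S_pt := by
  obtain ⟨δ, K, d0, d1, K0, hK⟩ := hg
  obtain ⟨C, C0, hC⟩ := ht δ d0
  refine ⟨K * √(256 * (2 ^ 20 * (4 * C + 9 ^ 8))), by positivity, fun S U j x y hB => ?_⟩
  obtain ⟨N, hN⟩ : ∃ N, N = nrm (y - x) + 1 := ⟨_, rfl⟩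
  have N0 : 1 ≤ N := by omega
  have N1 : (1 : ℝ) ≤ N := by exact_mod_cast N0
  have l1 : N < 2 ^ (Nat.log 2 N + 1) := Nat.lt_pow_succ_log_self one_lt_two N
  have l2 : 2 ^ Nat.log 2 N ≤ N := Nat.pow_log_le_self 2 (by omega)
  obtain ⟨l, hl'⟩ : ∃ l, l = Nat.log 2 N := ⟨_, rfl⟩
  rw [← hl'] at l1 l2
  have h := hK S U j x N (fun H => (H y : ℝ) - H x) (256 * (2 ^ 20 * (4 * C + 9 ^ 8)) * N) hB N0
    (by positivity) (fun H H' h => by
      beta_reduce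
      rw [h y (show nrm (y - x) ≤ N by omega), h x (self_mem_hex _ _)])
    (fun H k => by push_cast; ring) fun i S' W h1 h2 h3 => ?_
  · refine h.trans_eq ?_
    rw [Real.sqrt_mul (by positivity), mul_assoc, hN]
    push_cast
    ring
  have one : ∀ z, nrm (x - z) ≤ N → Ex S' (fun H => (H z : ℝ) ^ 8) ≤
      2 ^ 20 * (4 * C + 9 ^ 8) * N * (1 + δ) ^ i := fun z hz => by
    have h4 : ¬ hex z (2 ^ (i + (l + 2)) * 1) ⊆ W := fun h => h3 ((hex_subset (by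
      have : 1 ≤ 2 ^ i := Nat.one_le_two_pow
      rw [mul_one, pow_add, pow_succ _ (l + 1)]
      nlinarith)).trans h)
    have h5 := hs.mom S' W (hex z 1) (Finsupp.single z 1) (C * (1 + δ) ^ (i + (l + 2)) * 1) 9
      h1.1 h2 (by positivity) (by norm_num) (fun w => by
        rw [Finsupp.single_apply]
        split_ifs <;> simp) (fun w hw => by
        rw [Finsupp.single_apply] at hw
        split_ifs at hw with h
        · exact h ▸ self_mem_hex _ _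
        · exact absurd rfl hw) fun ψ p1 p2 =>
      ⟨by simpa using hC _ 1 z W ψ le_rfl p1 p2 h1 h4, by
        have := hl.tot_le ψ z 1 p1 p2
        norm_num at this
        exact this⟩
    have e : ∀ H : Cfg, lin (Finsupp.single z 1) H = H z := fun H => by simp [lin]
    simp only [e] at h5
    refine h5.trans ?_
    have e1 : (1 : ℝ) ≤ (1 + δ) ^ i := one_le_pow₀ (by linarith)
    have e2 : (1 + δ) ^ (l + 2) ≤ 4 * N := by
      refine (pow_le_pow_left₀ (by linarith) (show 1 + δ ≤ 2 by linarith) _).trans ?_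
      have : (2 : ℝ) ^ l ≤ N := by exact_mod_cast l2
      rw [pow_add]
      linarith
    have e3 : C * (1 + δ) ^ i * (1 + δ) ^ (l + 2) ≤ C * (1 + δ) ^ i * (4 * N) :=
      mul_le_mul_of_nonneg_left e2 (by positivity)
    have e4 : (1 : ℝ) ≤ N * (1 + δ) ^ i := one_le_mul_of_one_le_of_one_le N1 e1
    have e5 : 2 ^ 20 * (4 * C + 9 ^ 8) * (N : ℝ) * (1 + δ) ^ i = 2 ^ 20 *
        (C * (1 + δ) ^ i * (4 * N) + 9 ^ 8 * (N * (1 + δ) ^ i)) := by ring
    rw [e5, pow_add, ← mul_assoc, mul_one]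
    exact mul_le_mul_of_nonneg_left (by linarith) (by positivity)
  have two : Ex S' (fun H => ((H y : ℝ) - H x) ^ 8) ≤
      Ex S' fun H => 128 * ((H y : ℝ) ^ 8 + (H x : ℝ) ^ 8) := Ex_mono fun H _ => by
    have := (show Even 8 by decide).add_pow_le (a := (H y : ℝ)) (b := -(H x : ℝ))
    rw [(show Even 8 by decide).neg_pow, ← sub_eq_add_neg] at this
    norm_num at this ⊢
    exact this
  rw [Ex_mul_left, Ex_add] at two
  have o1 := one y (by rw [nrm_sub_comm]; omega)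
  have o2 := one x (by rw [sub_self, nrm_eq_zero.2 rfl]; omega)
  linarith

end Vale.Agent.P153.App2
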