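import Vale.Agent.P153.App2.Stm

/-! P153, module App2: moments at the scale of the domain. -/

open Set

namespace Vale.Agent.P153.App2

open App

theorem mom_filter (hl : S_lin) {R : ℕ} {x : V} {U : Set V} {ψ : V →₀ ℝ} (hU : U ⊆ hex x R)
    (hψ : W1 ψ) : ∃ φ : V →₀ ℝ, W1 φ ∧ Sup φ (hex x R) ∧ M8 U ψ = M8 U φ := by
  classical
  refine ⟨ψ.filter (· ∈ hex x R), fun y => ?_, fun y hy => ?_, Ex_congr fun H hH => ?_⟩
  · rw [Finsupp.filter_apply]
    split_ifs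
    · exact hψ y
    · exact ⟨le_rfl, zero_le_one⟩
  · by_contra h
    exact hy (Finsupp.filter_apply_neg _ _ h)
  · rw [hl.eq ψ ψ.support H fun y hy => Finsupp.mem_support_iff.2 hy,
      hl.eq _ ψ.support H fun y hy => Finsupp.mem_support_iff.2 fun h => hy (by
        rw [Finsupp.filter_apply, h, ite_self])]
    refine congrArg (fun t : ℝ => max t 0 ^ 8) (Finset.sum_congr rfl fun y _ => ?_)
    rw [Finsupp.filter_apply]
    split_ifs with h
    · rfl
    · rw [hH.2 y fun c => h (hU c)]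
      simp

theorem mom_small (hl : S_lin) {R : ℕ} {x : V} {U : Set V} {ψ : V →₀ ℝ} (hU : U ⊆ hex x R)
    (hψ : W1 ψ) (hs : Sup ψ (hex x R)) : M8 U ψ ≤ (2 * (R : ℝ) + 1) ^ 24 := by
  refine Ex_le' (by positivity) fun H hH => ?_
  have h1 : nrm (x + ((R : ℤ) + 1, 0) - x) = R + 1 := by
    rw [add_sub_cancel_left]
    simp only [nrm]
    omega
  have h2 : H (x + ((R : ℤ) + 1, 0)) = 0 := hH.2 _ fun c => by
    have := mem_hex.1 (hU c)
    omega
  have h3 : lin ψ H ≤ (2 * (R : ℝ) + 1) * tot ψ := by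
    rw [lin, tot, Finsupp.sum, Finsupp.sum, Finset.mul_sum]
    refine Finset.sum_le_sum fun y hy => ?_
    have a1 := lip_nrm hH.1 y (x + ((R : ℤ) + 1, 0))
    have a2 := nrm_tri y x (x + ((R : ℤ) + 1, 0))
    have a3 := mem_hex.1 (hs y (Finsupp.mem_support_iff.1 hy))
    rw [nrm_sub_comm x y] at a2
    rw [h2, sub_zero, abs_le] at a1
    have a4 : H y ≤ 2 * (R : ℤ) + 1 := by omega
    rw [mul_comm (2 * (R : ℝ) + 1)]
    exact mul_le_mul_of_nonneg_left (by exact_mod_cast a4) (hψ y).1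
  have h4 : max (lin ψ H) 0 ≤ (2 * (R : ℝ) + 1) ^ 3 :=
    max_le (h3.trans ((mul_le_mul_of_nonneg_left (hl.tot_le ψ x R hψ hs)
      (by positivity)).trans_eq (by ring))) (by positivity)
  exact (pow_le_pow_left₀ (le_max_right _ _) h4 8).trans_eq (by rw [← pow_mul])

theorem mom_good (hl : S_lin) (hk : S_khin) {R r : ℕ} {x : V} {U : Set V} {ψ : V →₀ ℝ} {B : ℝ}
    (hU : U ⊆ hex x R) (hs : Small U r) (hr : R / (r + 1) ≤ 128) (hB : 0 ≤ B)
    (ih : ∀ (w : V) (G : Set V), G ⊆ hex w (3 * r) → M8 G ψ ≤ B) :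
    M8 U ψ ≤ 105 * 259 ^ 8 * B := by
  obtain ⟨T, hT, hc⟩ := cover x R r
  obtain ⟨z, z1, z2⟩ : ∃ z : V → V, (∀ y ∈ U, z y ∈ T ∧ y ∈ hex (z y) (3 * r)) ∧
      ∀ y ∈ U, ∀ y' ∈ U, Adj y y' → z y = z y' := by
    refine ⟨fun y => Classical.epsilon fun w =>
      w ∈ T ∧ ∃ u, Conn (fun _ _ => True) U y u ∧ u ∈ hex w (2 * r), fun y hy => ?_,
      fun y hy y' hy' h => congrArg _ (funext fun w => propext (and_congr_right fun _ =>
        exists_congr fun u => and_congr_left fun _ =>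
          ⟨Conn.head h.symm trivial hy' hy, Conn.head h trivial hy hy'⟩))⟩
    obtain ⟨h1, u, h2, h3⟩ := Classical.epsilon_spec (p := fun w =>
      w ∈ T ∧ ∃ u, Conn (fun _ _ => True) U y u ∧ u ∈ hex w (2 * r))
      ((hc y (hU hy)).imp fun w hw => ⟨hw.1, y, .rfl, hw.2⟩)
    refine ⟨h1, (nrm_tri _ u y).trans ?_⟩
    have a1 := hs y hy u h2
    rw [nrm_sub_comm y u]
    exact (Nat.add_le_add (mem_hex.1 h3) a1.le).trans_eq (by ring)
  have h1 := hk U T z ψ ((hex_finite x R).subset hU) (fun y hy => (z1 y hy).1) z2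
  have h2 : ∑ i ∈ T, Ex (flat {y | y ∈ U ∧ z y = i} 0) (fun H => lin ψ H ^ 8) ≤
      T.card * (2 * B) := by
    rw [← nsmul_eq_mul]
    refine Finset.sum_le_card_nsmul _ _ _ fun i _ => ?_
    rw [hl.full]
    exact mul_le_mul_of_nonneg_left (ih i _ fun y hy => hy.2 ▸ (z1 y hy.1).2) zero_le_two
  have h3 : (T.card : ℝ) ≤ 259 ^ 2 := by
    exact_mod_cast hT.trans (Nat.pow_le_pow_left (by omega : 2 * (R / (r + 1)) + 3 ≤ 259) 2)
  have h4 : (T.card : ℝ) ^ 4 ≤ (259 ^ 2) ^ 4 := pow_le_pow_left₀ (Nat.cast_nonneg _) h3 4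
  have h5 := h1.trans (mul_le_mul_of_nonneg_left h2 (by positivity))
  have h6 := mul_le_mul_of_nonneg_right h4 hB
  rw [hl.full] at h5
  calc M8 U ψ ≤ 105 * ((T.card : ℝ) ^ 4 * B) := by linarith
    _ ≤ 105 * ((259 ^ 2) ^ 4 * B) := by linarith
    _ = _ := by rw [← pow_mul, mul_assoc]

theorem s_mom (hl : S_lin) (hh : S_hole) (hn : S_nl) (hp : S_peel) (hk : S_khin) : S_mom := by
  obtain ⟨c, hc, hn⟩ := hn 128
  obtain ⟨D, hD, hp⟩ := hp 1 c one_pos hc
  obtain ⟨A, a1, a2⟩ : ∃ A : ℝ, 1025 ^ 24 ≤ A ∧ 2 ^ 17 * D ≤ A :=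
    ⟨_, le_max_left _ _, le_max_right _ _⟩
  have hA : 0 ≤ A := le_trans (by positivity) a1
  refine ⟨A, hA, fun R => ?_⟩
  induction R using Nat.strong_induction_on with
  | _ R ih =>
    intro x U ψ hU hψ
    obtain ⟨φ, h1, h2, e⟩ := mom_filter hl hU hψ
    rw [e]
    have hR : (0 : ℝ) ≤ R := Nat.cast_nonneg R
    rcases lt_or_ge R 512 with h | h
    · have h3 : (R : ℝ) ≤ 512 := by exact_mod_cast h.le
      refine (mom_small hl hU h1 h2).trans ((pow_le_pow_left₀ (by positivity)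
        (by linarith : 2 * (R : ℝ) + 1 ≤ 1025) 24).trans (a1.trans ?_))
      exact le_mul_of_one_le_right hA (one_le_pow₀ (by linarith))
    · obtain ⟨r, r1, r2, r3⟩ : ∃ r : ℕ, 1 ≤ r ∧ R ≤ 128 * r ∧ 32 * (3 * r + 1) ≤ R + 1 :=
        ⟨R / 128 + 1, by omega, by omega, by omega⟩
      have h3 := hp (fun U => U ⊆ hex x R) (fun U => Small U r) φ
        (105 * 259 ^ 8 * (A * (((3 * r : ℕ) : ℝ) + 1) ^ 16)) (fun y => (h1 y).1) (by positivity)
        (fun U hU => (hex_finite x R).subset hU) (fun U hU H _ => (hh.sub U H).trans hU)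
        (fun U hU => (hn r x U r1 (hU.trans (hex_mono r2))).trans (Pr_mono fun H hH h =>
          hh.small U H r ((hex_finite x R).subset hU) hH h))
        (fun U hU hs => mom_good hl hk hU hs (Nat.div_le_of_le_mul (by omega)) (by positivity)
          fun w G hG => ih (3 * r) (by omega) w G φ hG h1) U hU
      have h4 : tot φ ^ 8 ≤ 2 ^ 16 * ((R : ℝ) + 1) ^ 16 := by
        refine (pow_le_pow_left₀ (hl.tot_nonneg φ fun y => (h1 y).1) (hl.tot_le φ x R h1 h2) 8).trans ?_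
        rw [← pow_mul, ← mul_pow]
        exact pow_le_pow_left₀ (by positivity) (by linarith) _
      have h5 : 32 ^ 16 * (((3 * r : ℕ) : ℝ) + 1) ^ 16 ≤ ((R : ℝ) + 1) ^ 16 := by
        rw [← mul_pow]
        exact pow_le_pow_left₀ (by positivity) (by exact_mod_cast r3) _
      have h6 := mul_le_mul_of_nonneg_left h4 hD
      have h7 := mul_le_mul_of_nonneg_left h5 hA
      have h8 := mul_le_mul_of_nonneg_right a2 (by positivity : 0 ≤ ((R : ℝ) + 1) ^ 16)
      have h9 : 0 ≤ A * (((3 * r : ℕ) : ℝ) + 1) ^ 16 := by positivity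
      generalize (((3 * r : ℕ) : ℝ) + 1) ^ 16 = u at h3 h7 h9
      generalize ((R : ℝ) + 1) ^ 16 = v at h6 h7 h8 ⊢
      linarith

end Vale.Agent.P153.App2
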