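import Vale.Agent.P153.App2.Stm
import Vale.Agent.P153.App.MixW

/-! P153, module App2: arms near a wall, standard measures. -/

open Set

noncomputable section
namespace Vale.Agent.P153.App2

open App

theorem naw_det {U : Set V} {x : V} {n R : ℕ} {H : Cfg} (hU : Dm U) (hx : ¬ hex x n ⊆ U)
    (hH : H ∈ free U 0) (hR : n + 1 < R) (h : ¬ Arm (star (sp (0 + 2) H)) x (n + 1) R) :
    ¬ Arm (both (ge 2 H)) x n (R + 1) := by
  rw [← sp_compl] at h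
  obtain ⟨m, w, h1, h2, h3, h4⟩ := circ_of_not_arm_star (by omega) hR.le h
  have hm : 0 < m := by
    rcases Nat.eq_zero_or_pos m with rfl | h0
    · simp [wind] at h4
    · exact h0
  set Z : Set V := {v | ∃ t ≤ m, w t = v} with hZ
  have hZs : Z ⊆ sp 0 H := by
    rintro _ ⟨t, ht, rfl⟩
    rcases ht.lt_or_eq with h' | rfl
    · exact (h2 t h').2.1
    · rw [h1]; exact (h2 0 hm).2.1
  have hc : Cn Z := Cn.of_base (E := both (sp 0 H)) (x := w 0) (by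
    rintro _ ⟨t, ht, rfl⟩
    exact conn_of_walk (A := Z) h2 (fun t ht => ⟨t, ht, rfl⟩) (Nat.zero_le t) ht)
  obtain ⟨k, hk, hb⟩ := band_of_cn hH.1 hc hZs
  have cZ : Circ (both Z) x (n + 1) R :=
    ⟨m, w, h1, fun t ht => ⟨(h2 t ht).1, ⟨t, ht.le, rfl⟩, t + 1, ht, rfl⟩, h3, h4⟩
  obtain ⟨a, ha, haU⟩ := not_subset.1 hx
  obtain ⟨b, hb'⟩ := compl_nonempty (hU.1.union (hex_finite x R))
  have hbR : R < nrm (b - x) := not_le.1 fun h' => hb' (Or.inr (mem_hex.2 h'))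
  obtain ⟨v, hv, hvZ, -⟩ := cZ.meet_both (Nat.lt_succ_of_le (mem_hex.1 ha)) hbR
    (hU.2 a haU b fun h' => hb' (Or.inl h'))
  have e1 := hb v hvZ
  rw [hH.2.1 v hv] at e1
  rintro ⟨p, q, hp, hq, hpq⟩
  refine cZ.not_conn_both (a := p) (b := q) (by omega) (by omega)
    (hpq.mono (both_mono fun y hy hy' => ?_) Subset.rfl)
  have e2 := hb y hy'
  have e3 : 2 ≤ H y := hy
  omega

theorem s_naw (h : MixW) : S_naw := by
  obtain ⟨C, θ, hC, h0, h1, h⟩ := h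
  obtain ⟨J, hJ⟩ := exists_pow_lt_of_lt_one (by norm_num : (0 : ℝ) < 1 / 2) h1
  have hp : 1 ≤ C ^ J := Nat.one_le_pow _ _ hC
  refine ⟨2 * C ^ J + 2, by omega, fun U x n hn hU hx => ?_⟩
  have e : (2 * C ^ J + 2) * n = C ^ J * n + C ^ J * n + 2 * n := by ring
  have e1 : C ^ J * (n + 1) = C ^ J * n + C ^ J := by ring
  have e2 : C ^ J ≤ C ^ J * n := Nat.le_mul_of_pos_right _ hn
  obtain ⟨R, hR⟩ : ∃ R, (2 * C ^ J + 2) * n = R + 1 := ⟨(2 * C ^ J + 2) * n - 1, by omega⟩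
  have k1 := h 0 U x J (n + 1) R hU.1 hU.2 (by omega) (by omega)
  have k2 := Pr_compl (good_free hU.1 0) {H | Arm (star (sp (0 + 2) H)) x (n + 1) R}
  refine le_trans ?_ ((sd_flat_free hU.1 0).1.dec fun H K _ _ hHK hK hH =>
    hK (by
      obtain ⟨p, q, hp, hq, hpq⟩ := hH
      exact ⟨p, q, hp, hq, hpq.mono (both_mono fun y hy => le_trans hy (hHK y)) Subset.rfl⟩))
  refine le_trans (le_sub_comm.1 ((k1.trans hJ.le).trans (by norm_num))) (k2.ge.trans (Pr_mono fun H hH hc => ?_))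
  rw [hR]
  exact naw_det hU hx hH (by omega) hc

theorem s_bk (hs : S_sw) (h : MixS) : S_bk := by
  obtain ⟨C, θ, hC, h0, h1, h⟩ := h
  have geo : ∀ S U j x (J r R : ℕ), Bk S U j → hex x R ⊆ U → 1 ≤ r → C ^ J * r ≤ R →
      Pr S (ArmS j x r R) ≤ θ ^ J := by
    rintro S U j x J r R ⟨hU, ⟨rfl, rfl⟩ | ⟨P, rfl, rfl⟩⟩ hx hr hR
    · exact (h 2 0 U ∅ x J r R hU.1 hU.2 hx hr hR).1 (by norm_num)
    · exact (h 1 0 U P x J r R hU.1 hU.2 hx hr hR).2.2 (by norm_num)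
  have sw : ∀ S U j, Bk S U j → Sw S U := by
    rintro S U j ⟨hU, ⟨rfl, rfl⟩ | ⟨P, rfl, rfl⟩⟩
    exacts [hs.free U hU.1, hs.dob U P hU.1]
  refine ⟨fun S U j hb => (sw S U j hb).1, sw, ?_, ⟨2 * C, θ, by omega, h0, h1,
    fun S U j x J r R hb hx hr hR => geo S U j x J r R hb hx hr (le_trans
      (Nat.mul_le_mul_right _ (Nat.pow_le_pow_left (by omega) _)) hR)⟩, fun ε hε => ?_⟩
  · rintro S U j x R ⟨hU, ⟨rfl, rfl⟩ | ⟨P, rfl, rfl⟩⟩ hx
    · refine (freeIn_free U 0).mono fun y hy => ⟨hx (hex_mono (by omega) hy), ?_⟩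
      rintro ⟨-, z, hz, hyz⟩
      have e1 := mem_hex.1 hy
      have e2 := hyz.nrm_le x
      exact hz (hx (mem_hex.2 (by omega)))
    · exact (freeIn_dob U P).mono ((hex_mono (by omega)).trans hx)
  · obtain ⟨J, hJ⟩ := exists_pow_lt_of_lt_one hε h1
    exact ⟨C ^ J, Nat.one_le_pow _ _ hC, fun S U j x r R hb hx hr hR =>
      (geo S U j x J r R hb hx hr hR).trans hJ.le⟩

end Vale.Agent.P153.App2
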