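import Vale.Agent.P153.App2.Stm

/-! P153, module App2: peeling the levels. -/

open Set

namespace Vale.Agent.P153.App2

open App

theorem peel_root {d : ℝ} (hd : 0 < d) : ∃ η : ℝ, 0 < η ∧ (1 + η) ^ 8 = 1 + d := by
  refine ⟨(1 + d) ^ (((8 : ℕ) : ℝ)⁻¹) - 1, ?_, ?_⟩
  · have := Real.one_lt_rpow (x := 1 + d) (z := ((8 : ℕ) : ℝ)⁻¹) (by linarith) (by positivity)
    linarith
  · rw [add_sub_cancel]
    exact Real.rpow_inv_natCast_pow (by linarith) (by norm_num)

theorem peel_elem {d : ℝ} (hd : 0 < d) : ∃ E : ℝ, 1 ≤ E ∧ ∀ t z : ℝ, 0 ≤ t →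
    max (t + z) 0 ^ 8 ≤ (1 + d) * max z 0 ^ 8 + E * t ^ 8 := by
  obtain ⟨η, h0, h1⟩ := peel_root hd
  have hE : 1 ≤ (1 + η⁻¹) ^ 8 := one_le_pow₀ (le_add_of_nonneg_right (by positivity))
  refine ⟨(1 + η⁻¹) ^ 8, hE, fun t z ht => ?_⟩
  have y0 : 0 ≤ max z 0 := le_max_right _ _
  have y1 : max (t + z) 0 ≤ t + max z 0 :=
    max_le (add_le_add le_rfl (le_max_left _ _)) (by positivity)
  generalize max z 0 = y at y0 y1 ⊢
  have y2 : 0 ≤ max (t + z) 0 := le_max_right _ _
  have a1 : 0 ≤ (1 + d) * y ^ 8 := by positivity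
  have a2 : 0 ≤ (1 + η⁻¹) ^ 8 * t ^ 8 := by positivity
  rcases le_total t (η * y) with h | h
  · have : max (t + z) 0 ^ 8 ≤ ((1 + η) * y) ^ 8 := pow_le_pow_left₀ y2 (by linarith) _
    rw [mul_pow, h1] at this
    linarith
  · have h2 : y ≤ η⁻¹ * t := by rwa [← div_eq_inv_mul, le_div_iff₀ h0, mul_comm]
    have : max (t + z) 0 ^ 8 ≤ ((1 + η⁻¹) * t) ^ 8 := pow_le_pow_left₀ y2 (by linarith) _
    rw [mul_pow] at this
    linarith

theorem peel_lt (hh : S_hole) {U : Set V} {H : Cfg} (hU : U.Finite) (hne : U.Nonempty)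
    (hH : H ∈ flat U 0) :
    (unx U H).ncard < U.ncard := by
  obtain ⟨a, ha⟩ := hne
  obtain ⟨b, hb⟩ := hU.exists_notMem
  obtain ⟨u, v, -, huv, -, -, hu, -, hv, -⟩ := (conn_univ a b).exit ha hb
  refine ncard_lt_ncard ⟨hh.sub U H, fun h => h hu ?_⟩ hU
  exact Rch_step (subset_Rch _ _ _ hv) huv.symm (by rw [hH.2 v hv]; norm_num)

theorem peel_cell (hl : S_lin) {U : Set V} {H : Cfg} {ψ : V →₀ ℝ} (hψ : ∀ y, 0 ≤ ψ y)
    (hU : U.Finite) (hH : H ∈ flat U 0) (t : ℝ) :
    Ex (cell (flat U 0) Uᶜ (fun s _ => s ≤ 1) H) (fun K => max (t + lin ψ K) 0 ^ 8) ≤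
      Ex (flat (unx U H) 0) fun K => max (t + 2 * tot ψ + lin ψ K) 0 ^ 8 := by
  have h2 : ∀ x ∈ Rch Uᶜ (fun s _ => s ≤ 1) H, H x ≤ 2 := fun x hx => by
    rcases Rch_cases hx with h | ⟨a, -, h, h'⟩
    · rw [hH.2 x h]; norm_num
    · have := abs_le.1 (hH.1 a x h)
      omega
  have e1 := cell_flat (k := 1 + 1) (fun s => s ≤ 1)
    (f := fun K => max (t + lin ψ (pw (unx U H) K fun _ => 2)) 0 ^ 8)
    (f' := fun K => max (t + lin ψ K) 0 ^ 8) (good_flat hU 0).1 hU (freeIn_flat U 0) hH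
    (obd_low hH.1 fun x hx => by rw [hH.2 x hx.1]; norm_num) fun K _ K' hK' h => by
      have : (pw (unx U H) K fun _ => 2) = K' := funext fun x => by
        by_cases hx : x ∈ unx U H
        · rw [pw_in _ _ hx, h x hx]
        · rw [pw_out _ _ hx, hK'.2 x hx]; norm_num
      simp only [this]
  have e2 := Ex_flat_shift (unx U H) 0 2 fun K => max (t + lin ψ K) 0 ^ 8
  refine (Ex_mono fun K hK => ?_).trans (e1.trans (e2.symm.trans (Ex_congr fun K _ => ?_))).le
  · refine pow_le_pow_left₀ (le_max_right _ _) (max_le_max (add_le_add le_rfl ?_) le_rfl) _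
    refine hl.mono _ _ _ hψ fun y _ => ?_
    by_cases hy : y ∈ unx U H
    · rw [pw_in _ _ hy]
    · rw [pw_out _ _ hy, hK.2.1 y (not_not.1 hy)]
      exact h2 y (not_not.1 hy)
  · rw [hl.shift]
    push_cast
    ring_nf

theorem peel_fin {E A B c p a : ℝ} (hE : 0 ≤ E) (hB : 0 ≤ B) (c1 : c ≤ 1)
    (h : A ≤ (1 + c / 2) * B) (m : E * A * c ≤ E * A * p) :
    a + 2 * E * A - E * A * p ≤ a + 2 * E * B := by
  have m' := mul_le_mul_of_nonneg_left h (mul_nonneg hE (by linarith) : 0 ≤ E * (2 - c))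
  have m'' : 0 ≤ E * B * c ^ 2 := by positivity
  linarith

theorem s_peel (hl : S_lin) (hh : S_hole) : S_peel := by
  intro δ c hδ hc
  obtain ⟨E, hE, hel⟩ := peel_elem hδ
  obtain ⟨η, h0, h1⟩ := peel_root (half_pos hc)
  refine ⟨2 * E * (2 / η) ^ 8, by positivity, fun Cl Gd ψ b hψ hb hfin hcl hpr hgd => ?_⟩
  have hs := hl.tot_nonneg ψ hψ
  set s := tot ψ with hsd
  have key : ∀ (n : ℕ) (U : Set V), U.ncard = n → Cl U → ∀ t : ℝ, 0 ≤ t →
      Ex (flat U 0) (fun K => max (t + lin ψ K) 0 ^ 8) ≤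
        (1 + δ) * b + 2 * E * (t + 2 / η * s) ^ 8 := by
    intro n
    induction n using Nat.strong_induction_on with
    | _ n ih =>
    intro U hn hU t ht
    have hf := hfin U hU
    have hG := good_flat hf 0
    have hb' : 0 ≤ (1 + δ) * b := by positivity
    have hl0 : 0 ≤ 2 / η * s := by positivity
    rcases U.eq_empty_or_nonempty with rfl | hne
    · refine Ex_le hG fun K hK => ?_
      have : lin ψ K = 0 := by
        have : K = fun _ => 0 := funext fun x => hK.2 x (notMem_empty x)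
        simp [this, lin]
      rw [this, add_zero, max_eq_left ht]
      have a1 : t ^ 8 ≤ (t + 2 / η * s) ^ 8 := pow_le_pow_left₀ ht (by linarith) _
      have a2 := mul_le_mul_of_nonneg_right hE (by positivity : 0 ≤ (t + 2 / η * s) ^ 8)
      have a3 : 0 ≤ t ^ 8 := by positivity
      linarith
    have ht' : 0 ≤ t + 2 * s := by positivity
    set A := (t + 2 * s + 2 / η * s) ^ 8 with hA
    have A0 : 0 ≤ A := by positivity
    have A1 : (t + 2 * s) ^ 8 ≤ A := pow_le_pow_left₀ ht' (by linarith) _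
    have A2 : A ≤ (1 + c / 2) * (t + 2 / η * s) ^ 8 := by
      rw [← h1, ← mul_pow]
      refine pow_le_pow_left₀ (by positivity) ?_ _
      have : η * (2 / η * s) = 2 * s := by field_simp
      have := mul_nonneg h0.le ht
      linarith
    have c1 : c ≤ 1 := (hpr U hU).trans (Pr_le_one _ _)
    have e := tower_explore (S := flat U 0) Uᶜ (fun s _ => s ≤ 1)
      (fun K => max (t + lin ψ K) 0 ^ 8) (fun _ => 1) fun _ _ _ _ _ _ => rfl
    simp only [one_mul] at e
    have l1 : ∀ H ∈ flat U 0,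
        Ex (cell (flat U 0) Uᶜ (fun s _ => s ≤ 1) H) (fun K => max (t + lin ψ K) 0 ^ 8) ≤
          (1 + δ) * b + 2 * E * A - E * A * {H | Gd (unx U H)}.indicator 1 H := fun H hH => by
      refine (peel_cell hl hψ hf hH t).trans ?_
      have hU1 := hcl U hU H hH
      by_cases hg : H ∈ {H | Gd (unx U H)}
      · rw [indicator_of_mem hg, Pi.one_apply]
        refine (Ex_mono fun K _ => hel _ (lin ψ K) ht').trans ?_
        rw [Ex_add, Ex_mul_left, Ex_const (good_flat (hfin _ hU1) 0)]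
        have m := mul_le_mul_of_nonneg_left (hgd _ hU1 hg) (by positivity : 0 ≤ 1 + δ)
        have m' := mul_le_mul_of_nonneg_left A1 (by positivity : 0 ≤ E)
        unfold M8 at m
        linarith
      · rw [indicator_of_notMem hg, mul_zero, sub_zero]
        exact ih _ (hn ▸ peel_lt hh hf hne hH) _ rfl hU1 _ ht'
    rw [e]
    refine (Ex_mono l1).trans ?_
    rw [Ex_sub, Ex_const hG, Ex_mul_left]
    have m := mul_le_mul_of_nonneg_left (hpr U hU) (by positivity : 0 ≤ E * A)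
    exact peel_fin (by positivity) (by positivity) c1 A2 m
  intro U hU
  have := key _ U rfl hU 0 le_rfl
  simp only [zero_add, mul_pow] at this
  unfold M8
  linarith

end Vale.Agent.P153.App2
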