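import Vale.Agent.P153.App2.Stm

/-! P153, module App2: conditioning on a screen. -/

open Set

namespace Vale.Agent.P153.App2

open App

variable {S : Set Cfg} {j : ℤ} {x : V} {r R : ℕ} {f G : Cfg → ℝ}

/-- The screen. -/
def Wn (j : ℤ) (x : V) (R : ℕ) (H : Cfg) : Set V := comp (Rch (hex x R)ᶜ (eS j) H)ᶜ x

/-- The screen surrounds the small hexagon. -/
def Ok (j : ℤ) (x : V) (r R : ℕ) : Set Cfg := {H | hex x r ⊆ Wn j x R H}

theorem scr_sub (H : Cfg) : Wn j x R H ⊆ hex x R := comp_subset.trans (compl_Rch_subset _ _ H)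

theorem scr_dm (H : Cfg) : Dm (Wn j x R H) :=
  ⟨(hex_finite x R).subset (scr_sub H), cn_compl_comp (K := Rch (hex x R)ᶜ (eS j) H)
    (cnn_Rch (cn_compl_hex x R)) ((compl_nonempty (hex_finite x R)).imp fun _ h =>
      subset_Rch _ _ _ h) x⟩

theorem scr_ok (hr : r ≤ R) {H : Cfg} (h : H ∉ ArmS j x r R) : H ∈ Ok j x r R :=
  hex_subset_scr (E := star (sp j H)) (star_symm _) hr (fun _ k => le_of_lt (not_le.1 (mt mem_hex.2 k))) h

theorem scr_cell (hS : S.Finite) (hF : FreeIn S (hex x R)) {H : Cfg} (hH : H ∈ S) :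
    ∃ k, (k - j) % 4 = 2 ∧ ∀ f, DepOn f (Wn j x R H) →
      Ex (cell S (hex x R)ᶜ (eS j) H) f = Ex (free (Wn j x R H) k) f := by
  have ho : ∀ y ∈ obd (Wn j x R H), y ∈ Rch (hex x R)ᶜ (eS j) H := fun y hy =>
    not_not.1 (obd_comp hy).1
  obtain ⟨k, h1, h2⟩ := band_of_cn (j := j + 2) (hF.1 H hH) (cn_bd (cn_comp _ x) (scr_dm H).2) <| by
    rw [← sp_compl]
    rintro a (⟨k1, b, k2, k3⟩ | ⟨k1, b, k2, k3⟩)
    · exact fun e => explore_out (ho b ⟨k2, a, k1, k3.symm⟩) (comp_subset k1) k3.symm (Or.inr e)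
    · exact fun e => explore_out (ho a ⟨k1, b, k2, k3⟩) (comp_subset k2) k3 (Or.inl e)
  refine ⟨k, by omega, fun f hf => Ex_eq_free (good_cell hS hH) (scr_dm H).1
    (fun K hK => hF.1 K hK.1) ?_ ?_ fun K _ K' _ e => hf K K' e⟩
  · rintro K hK y (⟨k1, b, k2, k3⟩ | hy)
    · have l1 : b ∈ obd (Wn j x R H) := ⟨k2, y, k1, k3.symm⟩
      have l2 := hK.2.2 b (ho b l1) y (comp_subset k1) k3.symm
      have l3 := abs_le.1 (hF.1 K hK.1 y b k3)
      have l4 := h2 b (Or.inr l1)
      rw [hK.2.1 b (ho b l1)] at l3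
      unfold eS at l2
      omega
    · rw [hK.2.1 y (ho y hy)]; exact h2 y (Or.inr hy)
  · intro K hK L hL e1 e2
    refine explore_mem hF hK hL (fun y hy => e1 y fun e => comp_subset e hy) fun a ha b hb h => ?_
    by_cases k1 : b ∈ Wn j x R H
    · have l0 : a ∉ Wn j x R H := fun e => comp_subset e ha
      have l1 := e2 b ⟨k1, a, l0, h.symm⟩
      have l2 := h2 a (Or.inr ⟨l0, b, k1, h⟩)
      unfold eS
      omega
    · rw [e1 b k1]; exact hK.2.2 a ha b hb h

theorem scr_tower (hS : Good S) (hF : FreeIn S (hex x R)) (hf : DepOn f (hex x r))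
    (hG : DepOn G (hex x R)ᶜ) : ∃ k : Cfg → ℤ,
    (∀ H ∈ S, H ∈ Ok j x r R → Sc j x r R (Wn j x R H) (k H)) ∧
    Ex S (fun H => G H * (Ok j x r R).indicator 1 H * f H) =
      Ex S fun H => G H * (Ok j x r R).indicator 1 H * Ex (free (Wn j x R H) (k H)) f := by
  choose! k h1 h2 using fun H (hH : H ∈ S) => scr_cell (j := j) hS.1 hF hH
  refine ⟨k, fun H hH h => ⟨scr_dm H, h, scr_sub H, h1 H hH⟩, ?_⟩
  rw [tower_explore (hex x R)ᶜ (eS j) f _ fun H _ K _ e1 e2 => ?_]
  · refine Ex_congr fun H hH => ?_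
    by_cases h : H ∈ Ok j x r R
    · rw [h2 H hH f fun K K' e => hf K K' fun y hy => e y (h hy)]
    · simp [h]
  · have e3 : K ∈ Ok j x r R ↔ H ∈ Ok j x r R := by simp only [Ok, Wn, mem_ofPred_eq, e1]
    rw [hG K H fun y hy => e2 y (subset_Rch _ _ _ hy)]
    by_cases h : H ∈ Ok j x r R
    · simp [h, e3.2 h]
    · simp [h, mt e3.1 h]

theorem s_scr : S_scr where
  abs S j x r R f G κ η hS hF hr hf hG hG1 hη h := by
    obtain ⟨k, h1, h2⟩ := scr_tower (j := j) (f := fun H => f H - κ) hS hF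
      (fun H K e => congrArg (· - κ) (hf H K e)) hG
    have e : Ex S (fun H => f H * G H) - κ * Ex S G =
        Ex S (fun H => G H * (Ok j x r R).indicator 1 H * (f H - κ)) +
          Ex S fun H => G H * (Ok j x r R)ᶜ.indicator 1 H * (f H - κ) := by
      rw [← Ex_mul_left, ← Ex_sub, ← Ex_add]
      exact Ex_congr fun H _ => by rw [ind_compl]; ring
    rw [e, h2]
    refine (abs_add_le _ _).trans (add_le_add (abs_Ex_le_of hη fun H hH => ?_) ?_)
    · by_cases h3 : H ∈ Ok j x r R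
      · have h4 := h1 H hH h3
        rw [Ex_sub, Ex_const (good_free h4.1.1 _), indicator_of_mem h3, Pi.one_apply, mul_one,
          abs_mul]
        exact (mul_le_of_le_one_left (abs_nonneg _) (hG1 H)).trans (h _ _ h4)
      · simpa [h3] using hη
    · have h3 := abs_Ex_ind_le S (ArmS j x r R) fun H => |f H - κ|
      simp only [sq_abs] at h3
      refine (abs_Ex_le _ _).trans (((Ex_mono fun H _ => ?_).trans (le_abs_self _)).trans h3)
      rw [abs_mul, abs_mul, abs_of_nonneg (ind_nonneg _ H)]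
      exact mul_le_mul_of_nonneg_right ((mul_le_of_le_one_left (ind_nonneg _ H) (hG1 H)).trans
        (ind_mono fun k => by_contra fun k' => k (scr_ok hr k'))) (abs_nonneg _)
  le S j x r R f b hS hF hr hf f0 hb h := by
    obtain ⟨k, h1, h2⟩ := scr_tower (j := j) (G := fun _ => 1) hS hF hf fun _ _ _ => rfl
    simp only [one_mul] at h2
    refine (Ex_mono fun H _ => mul_le_mul_of_nonneg_right (ind_mono (scr_ok hr)) (f0 H)).trans ?_
    rw [h2]
    refine Ex_le hS fun H hH => ?_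
    by_cases h3 : H ∈ Ok j x r R
    · simpa [h3] using h _ _ (h1 H hH h3)
    · simpa [h3] using hb
  ge S j x r R f a hS hF hr hf f0 ha h := by
    obtain ⟨k, h1, h2⟩ := scr_tower (j := j) (G := fun _ => 1) hS hF hf fun _ _ _ => rfl
    simp only [one_mul] at h2
    refine le_trans ?_ (Ex_mono fun H _ => mul_le_of_le_one_left (f0 H) (ind_le_one (Ok j x r R) H))
    rw [h2, ← Pr_compl hS, Pr, ← Ex_mul_left]
    refine Ex_mono fun H hH => ?_
    by_cases h3 : H ∈ Ok j x r R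
    · rw [indicator_of_mem h3, Pi.one_apply, one_mul]
      exact (mul_le_of_le_one_right ha (ind_le_one _ H)).trans (h _ _ (h1 H hH h3))
    · rw [indicator_of_notMem h3, indicator_of_notMem fun k => h3 (scr_ok hr k)]
      simp

end Vale.Agent.P153.App2
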