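import Vale.Agent.P153.App.Stm

/-! P153, module App2 (levels, moments, mixing): definitions and statements. -/

open Set

noncomputable section
namespace Vale.Agent.P153.App2

open App

/-- Total weight. -/
def tot (a : V →₀ ℝ) : ℝ := a.sum fun _ c => c

/-- Weights between zero and one. -/
def W1 (ψ : V →₀ ℝ) : Prop := ∀ y, 0 ≤ ψ y ∧ ψ y ≤ 1

/-- Weights supported in `A`. -/
def Sup (a : V →₀ ℝ) (A : Set V) : Prop := ∀ y, a y ≠ 0 → y ∈ A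

/-- Eighth moment of the positive part under the flat measure. -/
def M8 (U : Set V) (ψ : V →₀ ℝ) : ℝ := Ex (flat U 0) fun H => max (lin ψ H) 0 ^ 8

/-- Finite sets with connected complement. -/
def Dm (U : Set V) : Prop := U.Finite ∧ Cnn Uᶜ

/-- The sites not reached by the exploration of the heights `≤ 1` from the complement of `U`. -/
def unx (U : Set V) (H : Cfg) : Set V := (Rch Uᶜ (fun s _ => s ≤ 1) H)ᶜ

/-- All components of `U` have diameter less than `r`. -/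
def Small (U : Set V) (r : ℕ) : Prop :=
  ∀ a ∈ U, ∀ b, Conn (fun _ _ => True) U a b → nrm (b - a) < r

/-- The components of `U` meeting `hex x n` lie in `hex x N`. -/
def Inside (U : Set V) (x : V) (n N : ℕ) : Prop :=
  ∀ a ∈ U, a ∈ hex x n → ∀ b, Conn (fun _ _ => True) U a b → b ∈ hex x N

/-- Measures between the flat measures `0` and `1`. -/
def Sw (S : Set Cfg) (U : Set V) : Prop :=
  Good S ∧ AllLip S ∧ SD id (flat U 0) S ∧ SD id S (flat U 1)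

/-- The standard measures, with the spin used for their screens. -/
def Bk (S : Set Cfg) (U : Set V) (j : ℤ) : Prop :=
  Dm U ∧ (S = free U 0 ∧ j = 2 ∨ ∃ P, S = dob U P ∧ j = 1)

/-- The event that there is an arm of edges touching the spin `sp j`. -/
def ArmS (j : ℤ) (x : V) (r R : ℕ) : Set Cfg := {H | Arm (star (sp j H)) x r R}

/-- Possible screens. -/
def Sc (j : ℤ) (x : V) (r R : ℕ) (W : Set V) (k : ℤ) : Prop :=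
  Dm W ∧ hex x r ⊆ W ∧ W ⊆ hex x R ∧ (k - j) % 4 = 2

/-- Invariance under all global shifts. -/
def Inv1 (f : Cfg → ℝ) : Prop := ∀ (H : Cfg) (k : ℤ), f (fun y => H y + k) = f H

/-! ### Input -/

/-- Total variation bound in the spin order. -/
def TvS : Prop := ∀ (U U' D : Set V) (j : ℤ) (M : ℝ) (f : Cfg → ℝ), Dm U → Dm U' → U ⊆ U' →
  (∀ H, Lip H → |f H| ≤ M) → Dep4 f D →
  |Ex (free U j) f - Ex (free U' j) f| ≤ 2 * M * Pr (free U' j) {H | ¬ Rch D (eS (j + 2)) H ⊆ U}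

/-! ### Deterministic facts -/

structure S_hole : Prop where
  sub : ∀ U H, unx U H ⊆ U
  dm : ∀ U H, Dm U → Dm (unx U H)
  small : ∀ U H r, U.Finite → H ∈ flat U 0 → ¬ Lng (both (ge 2 H)) r → Small (unx U H) r
  inside : ∀ U H x n N, Dm U → H ∈ flat U 0 → ¬ hex x n ⊆ U → n ≤ N →
    ¬ Arm (both (ge 2 H)) x n N → Inside (unx U H) x n N

structure S_lin : Prop where
  eq : ∀ (a : V →₀ ℝ) (s : Finset V) (H : Cfg), Sup a s → lin a H = ∑ y ∈ s, a y * H y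
  shift : ∀ (a : V →₀ ℝ) (H : Cfg) (k : ℤ), lin a (fun y => H y + k) = lin a H + k * tot a
  flip : ∀ (a : V →₀ ℝ) (H : Cfg) (k : ℤ), lin a (fun y => k - H y) = k * tot a - lin a H
  mono : ∀ (a : V →₀ ℝ) (H K : Cfg), (∀ y, 0 ≤ a y) → (∀ y, a y ≠ 0 → H y ≤ K y) →
    lin a H ≤ lin a K
  dep : ∀ (a : V →₀ ℝ) (A : Set V), Sup a A → DepOn (lin a) A
  tot_nonneg : ∀ a : V →₀ ℝ, (∀ y, 0 ≤ a y) → 0 ≤ tot a
  tot_le : ∀ (ψ : V →₀ ℝ) (x : V) (N : ℕ), W1 ψ → Sup ψ (hex x N) → tot ψ ≤ (2 * N + 1) ^ 2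
  full : ∀ (U : Set V) (ψ : V →₀ ℝ), Ex (flat U 0) (fun H => lin ψ H ^ 8) = 2 * M8 U ψ
  loc : ∀ (U : Set V) (ψ : V →₀ ℝ) (x : V) (n N : ℕ), U.Finite → Sup ψ (hex x n) →
    Inside U x n N → ∃ G, G ⊆ U ∧ G ⊆ hex x N ∧ M8 U ψ = M8 G ψ

/-! ### Levels -/

/-- No long high path under the flat measure. -/
def S_nl : Prop := ∀ L : ℕ, ∃ c : ℝ, 0 < c ∧ ∀ (r : ℕ) (x : V) (U : Set V), 1 ≤ r →
  U ⊆ hex x (L * r) → c ≤ Pr (flat U 0) {H | ¬ Lng (both (ge 2 H)) r}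

/-- No high arm near a wall. -/
def S_naw : Prop := ∃ C : ℕ, 1 ≤ C ∧ ∀ (U : Set V) (x : V) (n : ℕ), 1 ≤ n → Dm U →
  ¬ hex x n ⊆ U → 1 / 2 ≤ Pr (flat U 0) {H | ¬ Arm (both (ge 2 H)) x n (C * n)}

/-- Long paths of large height are unlikely. -/
def S_k3 : Prop := ∀ (L : ℕ) (η : ℝ), 0 < η → ∃ M : ℕ, ∀ (r : ℕ) (x : V) (U : Set V), 1 ≤ r →
  U ⊆ hex x (L * r) → Pr (flat U 0) {H | Lng (both (ge M H)) r} ≤ η

/-- The two-sided version for the measures between two flat measures. -/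
def S_k3s : Prop := ∀ (L : ℕ) (η : ℝ), 0 < η → ∃ M : ℕ, ∀ (r : ℕ) (x : V) (U : Set V)
  (S : Set Cfg), 1 ≤ r → U ⊆ hex x (L * r) → Sw S U →
  Pr S {H | Lng (both (Seal.big 0 M H)) r} ≤ η

/-! ### Moments -/

/-- Peeling the levels until the unexplored region is good. -/
def S_peel : Prop := ∀ δ c : ℝ, 0 < δ → 0 < c → ∃ D : ℝ, 0 ≤ D ∧
  ∀ (Cl Gd : Set V → Prop) (ψ : V →₀ ℝ) (b : ℝ), (∀ y, 0 ≤ ψ y) → 0 ≤ b →
  (∀ U, Cl U → U.Finite) → (∀ U, Cl U → ∀ H ∈ flat U 0, Cl (unx U H)) →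
  (∀ U, Cl U → c ≤ Pr (flat U 0) {H | Gd (unx U H)}) → (∀ U, Cl U → Gd U → M8 U ψ ≤ b) →
  ∀ U, Cl U → M8 U ψ ≤ (1 + δ) * b + D * tot ψ ^ 8

/-- Khintchine inequality for non adjacent groups. -/
def S_khin : Prop := ∀ (U : Set V) (s : Finset V) (z : V → V) (ψ : V →₀ ℝ), U.Finite →
  (∀ y ∈ U, z y ∈ s) → (∀ y ∈ U, ∀ y' ∈ U, Adj y y' → z y = z y') →
  Ex (flat U 0) (fun H => lin ψ H ^ 8) ≤
    105 * (s.card : ℝ) ^ 3 * ∑ i ∈ s, Ex (flat {y | y ∈ U ∧ z y = i} 0) fun H => lin ψ H ^ 8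

/-- Moments at the scale of the domain. -/
def S_mom : Prop := ∃ A : ℝ, 0 ≤ A ∧ ∀ (R : ℕ) (x : V) (U : Set V) (ψ : V →₀ ℝ), U ⊆ hex x R →
  W1 ψ → M8 U ψ ≤ A * ((R : ℝ) + 1) ^ 16

/-- Slow growth with the size of the domain. -/
def S_grow : Prop := ∀ δ : ℝ, 0 < δ → ∃ C : ℝ, 0 ≤ C ∧ ∀ (i N : ℕ) (x : V) (U : Set V)
  (ψ : V →₀ ℝ), 1 ≤ N → W1 ψ → Sup ψ (hex x N) → U ⊆ hex x (2 ^ i * N) →
  M8 U ψ ≤ C * (1 + δ) ^ i * (N : ℝ) ^ 16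

/-- Slow growth with the distance to the wall. -/
def S_tw : Prop := ∀ δ : ℝ, 0 < δ → ∃ C : ℝ, 0 ≤ C ∧ ∀ (i N : ℕ) (x : V) (U : Set V)
  (ψ : V →₀ ℝ), 1 ≤ N → W1 ψ → Sup ψ (hex x N) → Dm U → ¬ hex x (2 ^ i * N) ⊆ U →
  M8 U ψ ≤ C * (1 + δ) ^ i * (N : ℝ) ^ 16

structure S_sw : Prop where
  free : ∀ U : Set V, U.Finite → Sw (free U 0) U
  dob : ∀ U P : Set V, U.Finite → Sw (dob U P) U
  mom : ∀ (S : Set Cfg) (U A : Set V) (a : V →₀ ℝ) (b s : ℝ), U.Finite → Sw S U → 0 ≤ b → 0 ≤ s →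
    (∀ y, |a y| ≤ 1) → Sup a A → (∀ ψ, W1 ψ → Sup ψ A → M8 U ψ ≤ b ∧ tot ψ ≤ s) →
    Ex S (fun H => lin a H ^ 8) ≤ 2 ^ 20 * (b + s ^ 8)

/-- Summing over the scales. -/
def S_abs4 : Prop := ∀ θ l : ℝ, 0 < θ → 1 ≤ l → l * θ < 1 → ∃ K : ℝ, 0 ≤ K ∧
  ∀ (S : Set Cfg) (X : Cfg → ℝ) (A : ℕ → Set Cfg) (J : ℕ) (b : ℝ), 0 ≤ b → (∀ H ∈ S, H ∈ A 0) →
  (∀ j ≤ J, Pr S (A j) ≤ θ ^ j) →
  (∀ j < J, Ex S (fun H => (A (j + 1))ᶜ.indicator 1 H * X H ^ 8) ≤ b * l ^ (j + 1)) →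
  Ex S (fun H => X H ^ 8) ≤ b * l ^ (J + 1) → Ex S (fun H => X H ^ 4) ≤ K * √b

/-! ### Screens -/

structure S_scr : Prop where
  abs : ∀ (S : Set Cfg) (j : ℤ) (x : V) (r R : ℕ) (f G : Cfg → ℝ) (κ η : ℝ), Good S →
    FreeIn S (hex x R) → r ≤ R → DepOn f (hex x r) → DepOn G (hex x R)ᶜ → (∀ H, |G H| ≤ 1) →
    0 ≤ η → (∀ W k, Sc j x r R W k → |Ex (free W k) f - κ| ≤ η) →
    |Ex S (fun H => f H * G H) - κ * Ex S G| ≤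
      η + √(Pr S (ArmS j x r R)) * √(Ex S fun H => (f H - κ) ^ 2)
  le : ∀ (S : Set Cfg) (j : ℤ) (x : V) (r R : ℕ) (f : Cfg → ℝ) (b : ℝ), Good S →
    FreeIn S (hex x R) → r ≤ R → DepOn f (hex x r) → (∀ H, 0 ≤ f H) → 0 ≤ b →
    (∀ W k, Sc j x r R W k → Ex (free W k) f ≤ b) →
    Ex S (fun H => (ArmS j x r R)ᶜ.indicator 1 H * f H) ≤ b
  ge : ∀ (S : Set Cfg) (j : ℤ) (x : V) (r R : ℕ) (f : Cfg → ℝ) (a : ℝ), Good S →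
    FreeIn S (hex x R) → r ≤ R → DepOn f (hex x r) → (∀ H, 0 ≤ f H) → 0 ≤ a →
    (∀ W k, Sc j x r R W k → a ≤ Ex (free W k) f) →
    a * (1 - Pr S (ArmS j x r R)) ≤ Ex S f

/-- Facts on the standard measures. -/
structure S_bk : Prop where
  good : ∀ S U j, Bk S U j → Good S
  sw : ∀ S U j, Bk S U j → Sw S U
  free : ∀ S U j x R, Bk S U j → hex x (R + 1) ⊆ U → FreeIn S (hex x R)
  geo : ∃ (C : ℕ) (θ : ℝ), 2 ≤ C ∧ 0 < θ ∧ θ < 1 ∧ ∀ S U j x (J r R : ℕ), Bk S U j → hex x R ⊆ U →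
    1 ≤ r → C ^ J * r ≤ R → Pr S (ArmS j x r R) ≤ θ ^ J
  eps : ∀ ε : ℝ, 0 < ε → ∃ M : ℕ, 1 ≤ M ∧ ∀ S U j x (r R : ℕ), Bk S U j → hex x R ⊆ U →
    1 ≤ r → M * r ≤ R → Pr S (ArmS j x r R) ≤ ε

/-- Fourth moments of shift invariant observables. -/
def S_m0g : Prop := ∃ δ K : ℝ, 0 < δ ∧ δ ≤ 1 ∧ 0 ≤ K ∧ ∀ (S : Set Cfg) (U : Set V) (j : ℤ) (x : V)
  (N : ℕ) (X : Cfg → ℝ) (b : ℝ), Bk S U j → 1 ≤ N → 0 ≤ b → DepOn X (hex x N) → Inv1 X →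
  (∀ (i : ℕ) (S' : Set Cfg) (W : Set V), Dm W → Sw S' W → ¬ hex x (2 ^ i * N) ⊆ W →
    Ex S' (fun H => X H ^ 8) ≤ b * (1 + δ) ^ i) → Ex S (fun H => X H ^ 4) ≤ K * √b

/-- Fourth moments of zero sum statistics. -/
def S_m0 : Prop := ∃ K : ℝ, 0 ≤ K ∧ ∀ (S : Set Cfg) (U : Set V) (j : ℤ) (x : V) (N : ℕ)
  (a : V →₀ ℝ), Bk S U j → 1 ≤ N → (∀ y, |a y| ≤ 1) → Sup a (hex x N) → tot a = 0 →
  Ex S (fun H => lin a H ^ 4) ≤ K * (N : ℝ) ^ 8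

/-- Fourth moments of height differences. -/
def S_pt : Prop := ∃ K : ℝ, 0 ≤ K ∧ ∀ (S : Set Cfg) (U : Set V) (j : ℤ) (x y : V), Bk S U j →
  Ex S (fun H => ((H y : ℝ) - H x) ^ 4) ≤ K * √((nrm (y - x) : ℝ) + 1)

/-! ### Mixing -/

/-- Two large bands agree on bounded local observables. -/
def S_tvb : Prop := ∀ ε : ℝ, 0 < ε → ∃ M : ℕ, 1 ≤ M ∧ ∀ (N : ℕ) (x : V) (U U' : Set V)
  (f : Cfg → ℝ), 1 ≤ N → Dm U → Dm U' → hex x (M * N) ⊆ U → hex x (M * N) ⊆ U' →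
  DepOn f (hex x N) → Inv4 f → (∀ H, Lip H → |f H| ≤ 1) →
  |Ex (free U 0) f - Ex (free U' 0) f| ≤ ε

/-- The same for products of two zero sum statistics. -/
def S_tvq : Prop := ∀ ε : ℝ, 0 < ε → ∃ M : ℕ, 1 ≤ M ∧ ∀ (N : ℕ) (x : V) (U U' : Set V)
  (a b : V →₀ ℝ), 1 ≤ N → Dm U → Dm U' → hex x (M * N) ⊆ U → hex x (M * N) ⊆ U' →
  (∀ y, |a y| ≤ 1) → (∀ y, |b y| ≤ 1) → Sup a (hex x N) → Sup b (hex x N) → tot a = 0 →
  tot b = 0 → |Ex (free U 0) (fun H => lin a H * lin b H) -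
    Ex (free U' 0) fun H => lin a H * lin b H| ≤ ε * (N : ℝ) ^ 4

/-- Lower bound for the variance under a band. -/
def S_var : Prop := ∃ (C : ℕ) (c : ℝ), 1 ≤ C ∧ 0 < c ∧ ∀ (N : ℕ) (x : V) (W : Set V) (k : ℤ)
  (a : V →₀ ℝ) (μ : ℝ), 1 ≤ N → W.Finite → hex x (C * N) ⊆ W → (∀ y, 0 ≤ a y) →
  Sup a (hex x N) → c * tot a ^ 2 ≤ Ex (free W k) fun H => (lin a H - μ) ^ 2

end Vale.Agent.P153.App2
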