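import Vale.Agent.P153.App2.Stm

/-! P153, module App2: linear statistics and sandwiched measures. -/

open Set

namespace Vale.Agent.P153.App2

open App

theorem sw_eq (a : V →₀ ℝ) (s : Finset V) (H : Cfg) (h : Sup a s) :
    lin a H = ∑ y ∈ s, a y * H y :=
  Finsupp.sum_of_support_subset a (fun y hy => h y (Finsupp.mem_support_iff.1 hy)) _ (by simp)

theorem sw_tot (a : V →₀ ℝ) (s : Finset V) (h : Sup a s) : tot a = ∑ y ∈ s, a y :=
  Finsupp.sum_of_support_subset a (fun y hy => h y (Finsupp.mem_support_iff.1 hy)) _ (by simp)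

theorem sw_flip (a : V →₀ ℝ) (H : Cfg) (k : ℤ) :
    lin a (fun y => k - H y) = k * tot a - lin a H := by
  simp only [lin, tot, Finsupp.sum, Finset.mul_sum, ← Finset.sum_sub_distrib]
  refine Finset.sum_congr rfl fun y _ => ?_
  push_cast
  ring

theorem sw_dep (a : V →₀ ℝ) (A : Set V) (h : Sup a A) : DepOn (lin a) A := fun H K e =>
  Finset.sum_congr rfl fun y hy => by
    simp only [e y (h y (Finsupp.mem_support_iff.1 hy))]

theorem sw_split (t : ℝ) : t ^ 8 = max t 0 ^ 8 + max (-t) 0 ^ 8 := by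
  rcases le_total 0 t with h | h
  · rw [max_eq_left h, max_eq_right (by linarith)]; ring
  · rw [max_eq_right h, max_eq_left (by linarith)]; ring

theorem sw_neg (U : Set V) (ψ : V →₀ ℝ) :
    Ex (flat U 0) (fun H => max (-lin ψ H) 0 ^ 8) = M8 U ψ := by
  have h := Ex_flat_flip U 0 0 fun H => max (lin ψ H) 0 ^ 8
  simp only [sw_flip] at h
  simp only [Int.cast_zero, zero_mul, zero_sub, neg_zero] at h
  exact h

theorem s_lin : S_lin where
  eq := sw_eq
  shift a H k := by
    simp only [lin, tot, Finsupp.sum, Finset.mul_sum, ← Finset.sum_add_distrib]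
    refine Finset.sum_congr rfl fun y _ => ?_
    push_cast
    ring
  flip := sw_flip
  mono a H K h0 h := Finset.sum_le_sum fun y hy =>
    mul_le_mul_of_nonneg_left (by exact_mod_cast h y (Finsupp.mem_support_iff.1 hy)) (h0 y)
  dep := sw_dep
  tot_nonneg a h := Finset.sum_nonneg fun y _ => h y
  tot_le ψ x N h1 h2 := by
    rw [sw_tot ψ (Finset.Icc (x.1 - N) (x.1 + N) ×ˢ Finset.Icc (x.2 - N) (x.2 + N)) fun y hy => by
      have := mem_rh.1 (hex_subset_rh (h2 y hy))
      simp only [Finset.coe_product, Finset.coe_Icc, mem_prod, mem_Icc]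
      omega]
    refine (Finset.sum_le_card_nsmul _ _ 1 fun y _ => (h1 y).2).trans (le_of_eq ?_)
    have e : ∀ z : ℤ, (z + N + 1 - (z - N)).toNat = 2 * N + 1 := fun z => by omega
    rw [Finset.card_product, Int.card_Icc, Int.card_Icc, e, e, nsmul_eq_mul]
    push_cast
    ring
  full U ψ := by
    rw [Ex_congr fun H _ => sw_split (lin ψ H), Ex_add, sw_neg, two_mul]
    rfl
  loc U ψ x n N hU h1 h2 := by
    have hG : {b | ∃ a ∈ U, a ∈ hex x n ∧ Conn (fun _ _ => True) U a b} ⊆ U :=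
      fun b ⟨a, ha, _, hc⟩ => hc.mem ha
    refine ⟨_, hG, fun b ⟨a, ha, ha', hc⟩ => h2 a ha ha' b hc, ?_⟩
    refine Ex_eq_flat (good_flat hU 0) (hU.subset hG) ((freeIn_flat U 0).mono hG)
      (fun H hH y hy => hH.2 y fun hy' => ?_) fun H hH K hK e => ?_
    · obtain ⟨hy1, b, hb, hyb⟩ := hy
      obtain ⟨a, ha, ha', hc⟩ := hb
      exact hy1 ⟨a, ha, ha', hc.tail hyb.symm trivial (hc.mem ha) hy'⟩
    · rw [sw_dep ψ _ h1 H K fun y hy => ?_]
      by_cases hy' : y ∈ U
      · exact e y ⟨y, hy', hy, Conn.rfl⟩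
      · rw [hH.2 y hy', hK.2 y fun h => hy' (hG h)]

theorem sw_dob (U P : Set V) (hU : U.Finite) : Sw (dob U P) U := by
  refine ⟨good_dob hU P, allLip_dob, ?_, ?_⟩
  · refine sd_H (good_flat hU 0) (good_dob hU P) allLip_flat allLip_dob fun H a K b =>
      ⟨⟨a.1.inf b.1, fun x hx => ?_⟩, ⟨a.1.sup b.1, fun x hx => ⟨fun h => ?_, fun h => ?_⟩⟩⟩
    · rw [inf_ap, a.2 x hx]
      by_cases h : x ∈ P
      · rw [(b.2 x hx).1 h]; rfl
      · rw [(b.2 x hx).2 h]; rfl
    · rw [sup_ap, a.2 x hx, (b.2 x hx).1 h]; rfl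
    · rw [sup_ap, a.2 x hx, (b.2 x hx).2 h]; rfl
  · refine sd_H (good_dob hU P) (good_flat hU 1) allLip_dob allLip_flat fun H a K b =>
      ⟨⟨a.1.inf b.1, fun x hx => ⟨fun h => ?_, fun h => ?_⟩⟩, ⟨a.1.sup b.1, fun x hx => ?_⟩⟩
    · rw [inf_ap, b.2 x hx, (a.2 x hx).1 h]; rfl
    · rw [inf_ap, b.2 x hx, (a.2 x hx).2 h]; rfl
    · rw [sup_ap, b.2 x hx]
      by_cases h : x ∈ P
      · rw [(a.2 x hx).1 h]; rfl
      · rw [(a.2 x hx).2 h]; rfl

theorem sw_one (hl : S_lin) {S : Set Cfg} {U : Set V} {ψ : V →₀ ℝ} {b s : ℝ} (hU : U.Finite)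
    (hS : Sw S U) (h0 : ∀ y, 0 ≤ ψ y) (hb : M8 U ψ ≤ b) (hs : tot ψ ≤ s) :
    Ex S (fun H => lin ψ H ^ 8) ≤ 128 * (b + s ^ 8) + b := by
  have ht := hl.tot_nonneg ψ h0
  have hm : ∀ H K : Cfg, H ≤ K → lin ψ H ≤ lin ψ K := fun H K h =>
    hl.mono ψ H K h0 fun y _ => h y
  have k1 : Ex S (fun H => max (lin ψ H) 0 ^ 8) ≤ 128 * (b + s ^ 8) := by
    refine (hS.2.2.2 (fun H => max (lin ψ H) 0 ^ 8) fun H K _ _ h =>
      pow_le_pow_left₀ (le_max_right _ _) (max_le_max (hm H K h) le_rfl) 8).trans ?_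
    have e := Ex_flat_shift U 0 1 fun H => max (lin ψ H) 0 ^ 8
    rw [zero_add] at e
    rw [← e]
    have k : Ex (flat U 0) (fun H => max (lin ψ fun x => H x + 1) 0 ^ 8) ≤
        Ex (flat U 0) fun H => 128 * (max (lin ψ H) 0 ^ 8 + s ^ 8) := by
      refine Ex_mono fun H _ => ?_
      have h1 : max (lin ψ fun x => H x + 1) 0 ≤ max (lin ψ H) 0 + s := by
        rw [hl.shift]
        have h2 := le_max_left (lin ψ H) 0
        have h3 := le_max_right (lin ψ H) 0
        refine max_le ?_ (by linarith)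
        push_cast
        linarith
      refine (pow_le_pow_left₀ (le_max_right _ _) h1 8).trans ?_
      have h4 := add_pow_le (le_max_right (lin ψ H) 0) (ht.trans hs) 8
      norm_num at h4 ⊢
      exact h4
    rw [Ex_mul_left, Ex_add, Ex_const (good_flat hU 0)] at k
    have : Ex (flat U 0) (fun H => max (lin ψ H) 0 ^ 8) ≤ b := hb
    linarith
  have k2 : Ex S (fun H => max (-lin ψ H) 0 ^ 8) ≤ b := by
    have k := hS.2.2.1 (fun H => -(max (-lin ψ H) 0 ^ 8)) fun H K _ _ h => neg_le_neg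
      (pow_le_pow_left₀ (le_max_right _ _) (max_le_max (neg_le_neg (hm H K h)) le_rfl) 8)
    rw [Ex_neg, Ex_neg, sw_neg] at k
    linarith
  rw [Ex_congr fun H _ => sw_split (lin ψ H), Ex_add]
  linarith

theorem s_sw (hl : S_lin) : S_sw where
  free U hU := ⟨good_free hU 0, allLip_free, (sd_flat_free hU 0).1, by
    simpa using (sd_flat_free hU 0).2⟩
  dob := sw_dob
  mom S U A a b s hU hS hb hs ha hA h := by
    have key : ∀ c : V →₀ ℝ, (∀ y, |c y| ≤ 1) → (∀ y, c y ≠ 0 → a y ≠ 0) →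
        Sup (c.mapRange (fun t => max t 0) (by simp)) a.support ∧
        Ex S (fun H => lin (c.mapRange (fun t => max t 0) (by simp)) H ^ 8) ≤
          128 * (b + s ^ 8) + b := by
      intro c hc hca
      have h1 : ∀ y, (c.mapRange (fun t => max t 0) (by simp)) y ≠ 0 → a y ≠ 0 := by
        intro y hy
        refine hca y fun h0 => hy ?_
        simp [h0]
      have h2 : W1 (c.mapRange (fun t => max t 0) (by simp)) := fun y => by
        rw [Finsupp.mapRange_apply]
        exact ⟨le_max_right _ _, max_le (le_of_abs_le (hc y)) zero_le_one⟩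
      obtain ⟨h3, h4⟩ := h _ h2 fun y hy => hA y (h1 y hy)
      exact ⟨fun y hy => Finsupp.mem_support_iff.2 (h1 y hy),
        sw_one hl hU hS (fun y => (h2 y).1) h3 h4⟩
    obtain ⟨p1, p2⟩ := key a ha fun _ => id
    obtain ⟨q1, q2⟩ := key (-a) (fun y => by simpa using ha y) fun y => by simp
    have e : ∀ H ∈ S, lin a H ^ 8 ≤
        128 * (lin (a.mapRange (fun t => max t 0) (by simp)) H ^ 8 +
          lin ((-a).mapRange (fun t => max t 0) (by simp)) H ^ 8) := by
      intro H _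
      have e1 : lin a H = lin (a.mapRange (fun t => max t 0) (by simp)) H +
          -lin ((-a).mapRange (fun t => max t 0) (by simp)) H := by
        rw [hl.eq _ _ H p1, hl.eq _ _ H q1,
          hl.eq a a.support H fun y hy => Finsupp.mem_support_iff.2 hy, ← sub_eq_add_neg,
          ← Finset.sum_sub_distrib]
        refine Finset.sum_congr rfl fun y _ => ?_
        rw [Finsupp.mapRange_apply, Finsupp.mapRange_apply, Finsupp.neg_apply, ← sub_mul]
        congr 1
        rcases le_total 0 (a y) with h | h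
        · rw [max_eq_left h, max_eq_right (by linarith), sub_zero]
        · rw [max_eq_right h, max_eq_left (by linarith), zero_sub, neg_neg]
      have h4 := Even.add_pow_le (a := lin (a.mapRange (fun t => max t 0) (by simp)) H)
        (b := -lin ((-a).mapRange (fun t => max t 0) (by simp)) H) (n := 8) (by decide)
      rw [← e1, Even.neg_pow (by decide)] at h4
      norm_num at h4 ⊢
      exact h4
    have k := Ex_mono e
    rw [Ex_mul_left, Ex_add] at k
    have : 0 ≤ s ^ 8 := by positivity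
    linarith

end Vale.Agent.P153.App2
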