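import Vale.Agent.P153.App2.Stm

/-! P153, module App2: total variation bounds between large bands. -/

open Set

noncomputable section
namespace Vale.Agent.P153.App2

open App

theorem tv_abs_clip {c : ℝ} (hc : 0 ≤ c) (t : ℝ) : |max (-c) (min c t)| ≤ c :=
  abs_le.2 ⟨le_max_left _ _, max_le (by linarith) (min_le_left _ _)⟩

theorem tv_clip_eq {c t : ℝ} (h : |t| ≤ c) : max (-c) (min c t) = t := by
  rw [min_eq_right (abs_le.1 h).2, max_eq_right (abs_le.1 h).1]

theorem tv_clip_err {c : ℝ} (hc : 0 < c) (t : ℝ) : |t - max (-c) (min c t)| ≤ t ^ 2 / c := by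
  by_cases h : |t| ≤ c
  · rw [tv_clip_eq h, sub_self, abs_zero]; positivity
  · have h1 : |t| ≤ t ^ 2 / c := by
      rw [le_div_iff₀ hc, ← sq_abs, sq]
      exact mul_le_mul_of_nonneg_left (not_le.1 h).le (abs_nonneg _)
    refine le_trans ?_ h1
    rcases lt_abs.1 (not_le.1 h) with h2 | h2
    · rw [min_eq_left h2.le, max_eq_right (by linarith), abs_of_nonneg (by linarith),
        abs_of_nonneg (by linarith)]
      linarith
    · rw [min_eq_right (by linarith), max_eq_left (by linarith), abs_of_nonpos (by linarith),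
        abs_of_nonpos (by linarith)]
      linarith

theorem s_tvb (hb : S_bk) : S_tvb := by
  intro ε hε
  obtain ⟨M, hM, h⟩ := hb.eps (ε / 4) (by positivity)
  refine ⟨M, hM, fun N x U U' f hN dU dU' s s' h1 h2 h3 => ?_⟩
  have hNM : N ≤ M * N := Nat.le_mul_of_pos_left _ hM
  have key : ∀ W, Dm W → hex x (M * N) ⊆ W →
      |Ex (free (hex x (M * N)) 0) f - Ex (free W 0) f| ≤ ε / 2 := by
    intro W dW sW
    have e : ∀ A : Set V, Ex (free A 0) f = Ex (free A 0) fun H => max (-1) (min 1 (f H)) :=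
      fun A => Ex_congr fun H hH => (tv_clip_eq (h3 H hH.1)).symm
    rw [e, e]
    have k := tvS (j := 0) (D := hex x N) (f := fun H => max (-1) (min 1 (f H))) dW.1 sW
      (cnn_hex_compl _ _) dW.2 (fun H => tv_abs_clip zero_le_one _)
      (dep4_of_inv4 (cnn_hex x N) (fun H K e => by simp only [h1 H K e])
        fun H => by simp only [h2 H])
    have p : Pr (free W 0) {H | ¬ Rch (hex x N) (eS (0 + 2)) H ⊆ hex x (M * N)} ≤ ε / 4 :=
      (Pr_mono fun H _ hH => arm_of_Rch hNM hH).trans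
        (h _ W 2 x N (M * N) ⟨dW, Or.inl ⟨rfl, rfl⟩⟩ sW hN le_rfl)
    exact k.trans ((mul_le_mul_of_nonneg_left p (by norm_num)).trans (by linarith))
  have k1 := abs_le.1 (key U dU s)
  have k2 := abs_le.1 (key U' dU' s')
  rw [abs_le]
  constructor <;> linarith [k1.1, k1.2, k2.1, k2.2]

theorem s_tvq (hl : S_lin) (h0 : S_m0) (ht : S_tvb) : S_tvq := by
  intro ε hε
  obtain ⟨K, K0, hK⟩ := h0
  obtain ⟨l, hl0, hl1⟩ : ∃ l : ℝ, 0 < l ∧ K / l ≤ ε / 4 :=
    ⟨4 * (K + 1) / ε, by positivity, by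
      rw [div_le_iff₀ (by positivity)]
      have : ε / 4 * (4 * (K + 1) / ε) = K + 1 := by field_simp
      linarith⟩
  obtain ⟨M, hM, h⟩ := ht (ε / (2 * l)) (by positivity)
  refine ⟨M, hM, fun N x U U' a b hN dU dU' s s' a1 b1 a2 b2 a3 b3 => ?_⟩
  have N0 : (0 : ℝ) < N := by exact_mod_cast hN
  have c0 : 0 < l * (N : ℝ) ^ 4 := by positivity
  set c := l * (N : ℝ) ^ 4 with hc
  have k := h N x U U' (fun H => max (-c) (min c (lin a H * lin b H)) / c) hN dU dU' s s'
    (fun H H' e => by simp only [hl.dep a _ a2 H H' e, hl.dep b _ b2 H H' e])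
    (fun H => by simp only [hl.shift, a3, b3, mul_zero, add_zero])
    fun H _ => by
      rw [abs_div, abs_of_pos c0, div_le_one c0]
      exact tv_abs_clip c0.le _
  rw [Ex_div, Ex_div, ← sub_div, abs_div, abs_of_pos c0, div_le_iff₀ c0] at k
  have err : ∀ W, Dm W → |Ex (free W 0) (fun H => lin a H * lin b H) -
      Ex (free W 0) fun H => max (-c) (min c (lin a H * lin b H))| ≤ ε / 4 * (N : ℝ) ^ 4 := by
    intro W dW
    have bk : Bk (free W 0) W 2 := ⟨dW, Or.inl ⟨rfl, rfl⟩⟩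
    have m1 := hK _ W 2 x N a bk hN a1 a2 a3
    have m2 := hK _ W 2 x N b bk hN b1 b2 b3
    rw [← Ex_sub]
    refine (abs_Ex_le _ _).trans ((Ex_mono (g := fun H => (lin a H ^ 4 + lin b H ^ 4) / (2 * c))
      fun H _ => (tv_clip_err c0 _).trans ?_).trans ?_)
    · rw [div_le_div_iff₀ c0 (by positivity)]
      nlinarith [sq_nonneg (lin a H ^ 2 - lin b H ^ 2)]
    · rw [Ex_div, Ex_add, div_le_iff₀ (by positivity)]
      rw [div_le_iff₀ hl0] at hl1
      have : K * (N : ℝ) ^ 8 ≤ ε / 4 * l * (N : ℝ) ^ 8 :=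
        mul_le_mul_of_nonneg_right hl1 (by positivity)
      have e : ε / 4 * (N : ℝ) ^ 4 * (2 * c) = 2 * (ε / 4 * l * (N : ℝ) ^ 8) := by rw [hc]; ring
      linarith
  have e : ε / (2 * l) * c = ε / 2 * (N : ℝ) ^ 4 := by rw [hc]; field_simp
  have k1 := abs_le.1 (err U dU)
  have k2 := abs_le.1 (err U' dU')
  have k3 := abs_le.1 k
  rw [abs_le]
  constructor <;> linarith [k1.1, k1.2, k2.1, k2.2, k3.1, k3.2]

end Vale.Agent.P153.App2
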